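import Mathlib
import Vale.Agent.P161.Insert

/-!
# The sequential sampler with site dependent strengths
-/

open MeasureTheory

namespace Vale.Agent.P161

universe u

section General

variable {V : Type u} {ι : Type*} {R : Type*} [LinearOrder R]

/-- The iterates of the map whose fixed point is the sampler with strengths `g`. -/
noncomputable def vIter (μ : Measure (V → Bool)) (g : ι → ℝ) (site : ι → V) (r : ι → R)
    (S : Finset ι) (u : ι → ℝ) : ℕ → ι → ℝ
  | 0 => fun _ => 0
  | n + 1 => fun e =>
      T (g e * mag μ site (pre r S e) (fun i => g i * vIter μ g site r S u n i) (site e)) (u e)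

/-- The sequential sampler with strengths `g`, driven by the labels `u`. -/
noncomputable def vsamp (μ : Measure (V → Bool)) (g : ι → ℝ) (site : ι → V) (r : ι → R)
    (S : Finset ι) (u : ι → ℝ) : ι → ℝ :=
  vIter μ g site r S u (S.card + 1)

variable {μ : Measure (V → Bool)} {g g' : ι → ℝ} {site : ι → V} {r r' : ι → R} {S S' : Finset ι}
  {u u' : ι → ℝ}

theorem vIter_congr (μ : Measure (V → Bool)) (site : ι → V) (m : ℕ) :
    ∀ (S S' : Finset ι) (e : ι) (n n' : ℕ), (pre r S e).card ≤ m →
      pre r S e = pre r' S' e → (∀ i ∈ pre r S e, pre r S i = pre r' S' i) →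
      (∀ i ∈ pre r S e, u i = u' i) → u e = u' e →
      (∀ i ∈ pre r S e, g i = g' i) → g e = g' e →
      (pre r S e).card < n → (pre r S e).card < n' →
      vIter μ g site r S u n e = vIter μ g' site r' S' u' n' e := by
  induction m with
  | zero =>
    intro S S' e n n' h0 h hp hu hue hg hge hn hn'
    obtain ⟨k, rfl⟩ : ∃ k, n = k + 1 := ⟨n - 1, by omega⟩
    obtain ⟨k', rfl⟩ : ∃ k', n' = k' + 1 := ⟨n' - 1, by omega⟩
    simp only [vIter]
    rw [← h, hue, hge]
    congr 2
    refine mag_congr (fun i hi => ?_) _
    have : (pre r S e).card = 0 := by omega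
    rw [Finset.card_eq_zero] at this
    rw [this] at hi
    simp at hi
  | succ m ih =>
    intro S S' e n n' h0 h hp hu hue hg hge hn hn'
    obtain ⟨k, rfl⟩ : ∃ k, n = k + 1 := ⟨n - 1, by omega⟩
    obtain ⟨k', rfl⟩ : ∃ k', n' = k' + 1 := ⟨n' - 1, by omega⟩
    simp only [vIter]
    rw [← h, hue, hge]
    congr 2
    refine mag_congr (fun i hi => ?_) _
    have hi' := mem_pre.mp hi
    have hc := card_pre_lt hi
    have hsub : ∀ j ∈ pre r S i, j ∈ pre r S e := by
      intro j hj
      rw [mem_pre] at hj ⊢
      exact ⟨hj.1, hj.2.trans hi'.2⟩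
    rw [hg i hi]
    congr 1
    exact ih S S' i k k' (by omega) (hp i hi) (fun j hj => hp j (hsub j hj))
      (fun j hj => hu j (hsub j hj)) (hu i hi) (fun j hj => hg j (hsub j hj)) (hg i hi)
      (by omega) (by omega)

/-- The value of the sampler at `e` depends only on the events before `e`. -/
theorem vsamp_congr (μ : Measure (V → Bool)) (site : ι → V) {e : ι}
    (h : pre r S e = pre r' S' e) (hp : ∀ i ∈ pre r S e, pre r S i = pre r' S' i)
    (hu : ∀ i ∈ pre r S e, u i = u' i) (hue : u e = u' e)
    (hg : ∀ i ∈ pre r S e, g i = g' i) (hge : g e = g' e) :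
    vsamp μ g site r S u e = vsamp μ g' site r' S' u' e := by
  refine vIter_congr μ site _ S S' e _ _ le_rfl h hp hu hue hg hge ?_ ?_
  · exact Nat.lt_succ_of_le (card_pre_le r S e)
  · rw [h]; exact Nat.lt_succ_of_le (card_pre_le r' S' e)

theorem vsamp_congr' (μ : Measure (V → Bool)) (site : ι → V) {e : ι}
    (h : pre r S e = pre r S' e) (hu : ∀ i ∈ pre r S e, u i = u' i) (hue : u e = u' e) :
    vsamp μ g site r S u e = vsamp μ g site r S' u' e := by
  refine vsamp_congr μ site h (fun i hi => ?_) hu hue (fun _ _ => rfl) rfl
  have hi' := mem_pre.mp hi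
  rw [← pre_pre (S := S) hi'.2.le, ← pre_pre (S := S') hi'.2.le, h]

theorem vsamp_eq (μ : Measure (V → Bool)) (g : ι → ℝ) (site : ι → V) (r : ι → R)
    (S : Finset ι) (u : ι → ℝ) (e : ι) :
    vsamp μ g site r S u e =
      T (g e * mag μ site (pre r S e) (fun i => g i * vsamp μ g site r S u i) (site e)) (u e) := by
  have h1 : vsamp μ g site r S u e = vIter μ g site r S u (S.card + 1 + 1) e := by
    refine vIter_congr μ site _ S S e _ _ le_rfl rfl (fun _ _ => rfl) (fun _ _ => rfl) rfl
      (fun _ _ => rfl) rfl ?_ ?_
    · exact Nat.lt_succ_of_le (card_pre_le r S e)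
    · exact (Nat.lt_succ_of_le (card_pre_le r S e)).trans (Nat.lt_succ_self _)
  rw [h1]
  rfl

theorem abs_gmul_lt (h0 : ∀ i, 0 ≤ g i) (h1 : ∀ i, g i < 1) {x : ι → ℝ} {i : ι}
    (hx : |x i| ≤ 1) : |g i * x i| < 1 := by
  rw [abs_mul, abs_of_nonneg (h0 i)]
  calc g i * |x i| ≤ g i * 1 := mul_le_mul_of_nonneg_left hx (h0 i)
    _ < 1 := by linarith [h1 i]

theorem abs_vsamp_le [IsProbabilityMeasure μ] (h0 : ∀ i, 0 ≤ g i) (h1 : ∀ i, g i < 1) (e : ι) :
    |vsamp μ g site r S u e| ≤ 1 := by
  have key : ∀ n i, |vIter μ g site r S u n i| ≤ 1 := by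
    intro n
    induction n with
    | zero => intro i; simp [vIter]
    | succ n ih =>
      intro i
      simp only [vIter]
      refine abs_T_le ?_ _
      have h2 : |mag μ site (pre r S i) (fun i => g i * vIter μ g site r S u n i) (site i)| ≤ 1 :=
        abs_mag_le (fun j _ => abs_gmul_lt (x := vIter μ g site r S u n) h0 h1 (ih j)) _
      rw [abs_mul, abs_of_nonneg (h0 i)]
      calc g i * _ ≤ g i * 1 := mul_le_mul_of_nonneg_left h2 (h0 i)
        _ < 1 := by linarith [h1 i]
  exact key _ e

theorem measurable_vIter [Countable V] [IsProbabilityMeasure μ] {Ω : Type*}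
    [MeasurableSpace Ω] {g : Ω → ι → ℝ} {r : Ω → ι → R} {u : Ω → ι → ℝ}
    (hg : ∀ i, Measurable fun ω => g ω i)
    (hr : ∀ i j, MeasurableSet {ω | r ω i < r ω j}) (hu : ∀ i, Measurable fun ω => u ω i)
    (n : ℕ) : ∀ e : ι, Measurable fun ω => vIter μ (g ω) site (r ω) S (u ω) n e := by
  induction n with
  | zero => intro e; simp only [vIter]; exact measurable_const
  | succ n ih =>
    intro e
    simp only [vIter]
    have hwt : Measurable (fun p : Ω × (V → Bool) => wt site (pre (r p.1) S e)
        (fun i => g p.1 i * vIter μ (g p.1) site (r p.1) S (u p.1) n i) p.2) := by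
      simp only [wt_pre_eq]
      refine Finset.measurable_fun_prod _ fun i _ => ?_
      refine Measurable.ite ?_ ?_ measurable_const
      · exact (hr i e).preimage measurable_fst
      · refine measurable_const.add
          ((((hg i).comp measurable_fst).mul ((ih i).comp measurable_fst)).mul ?_)
        exact (measurable_spin_apply (site i)).comp measurable_snd
    have hmag : Measurable (fun ω => mag μ site (pre (r ω) S e)
        (fun i => g ω i * vIter μ (g ω) site (r ω) S (u ω) n i) (site e)) := by
      unfold mag evid
      refine Measurable.div ?_ ?_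
      · have h1 : Measurable (fun p : Ω × (V → Bool) => spin (p.2 (site e)) *
            wt site (pre (r p.1) S e)
              (fun i => g p.1 i * vIter μ (g p.1) site (r p.1) S (u p.1) n i) p.2) :=
          ((measurable_spin_apply (site e)).comp measurable_snd).mul hwt
        exact (h1.stronglyMeasurable.integral_prod_right (ν := μ)).measurable
      · exact (hwt.stronglyMeasurable.integral_prod_right (ν := μ)).measurable
    exact measurable_T.comp (((hg e).mul hmag).prodMk (hu e))

theorem measurable_vsamp [Countable V] [IsProbabilityMeasure μ] {Ω : Type*} [MeasurableSpace Ω]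
    {g : Ω → ι → ℝ} {r : Ω → ι → R} {u : Ω → ι → ℝ} (hg : ∀ i, Measurable fun ω => g ω i)
    (hr : ∀ i j, MeasurableSet {ω | r ω i < r ω j})
    (hu : ∀ i, Measurable fun ω => u ω i) (e : ι) :
    Measurable fun ω => vsamp μ (g ω) site (r ω) S (u ω) e :=
  measurable_vIter hg hr hu _ e

theorem vIter_equivariant (φ : ι ≃ ι) (f : V ≃ V) (hφ : ∀ i, site (φ i) = f (site i))
    (hμ : μ.map (fun σ v => σ (f.symm v)) = μ) (n : ℕ) : ∀ e : ι,
    vIter μ g site r (S.map φ.toEmbedding) u n (φ e) =
      vIter μ (g ∘ φ) site (r ∘ φ) S (u ∘ φ) n e := by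
  induction n with
  | zero => intro e; rfl
  | succ n ih =>
    intro e
    simp only [vIter]
    rw [pre_map, hφ, mag_map φ f hφ hμ]
    simp only [Function.comp_apply]
    congr 2
    congr 1
    funext i
    simp only [Function.comp_apply, ih]

theorem vsamp_equivariant (φ : ι ≃ ι) (f : V ≃ V) (hφ : ∀ i, site (φ i) = f (site i))
    (hμ : μ.map (fun σ v => σ (f.symm v)) = μ) (e : ι) :
    vsamp μ g site r (S.map φ.toEmbedding) u (φ e) =
      vsamp μ (g ∘ φ) site (r ∘ φ) S (u ∘ φ) e := by
  unfold vsamp
  rw [Finset.card_map]
  exact vIter_equivariant φ f hφ hμ _ e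

end General

/-! ## The law -/

section Law

variable {V : Type u} {ι : Type*} {R : Type*} [LinearOrder R]
  {μ : Measure (V → Bool)} {g : ι → ℝ} {site : ι → V} {r : ι → R} {S : Finset ι}

theorem v_measurable_wt_joint [Countable V] (S : Finset ι) :
    Measurable (fun p : (ι → ℝ) × (V → Bool) => wt site S (fun i => g i * clamp (p.1 i)) p.2) := by
  unfold wt
  refine Finset.measurable_fun_prod _ fun i _ => ?_
  refine measurable_const.add ((measurable_const.mul (measurable_clamp.comp
    ((measurable_pi_apply i).comp measurable_fst))).mul ?_)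
  exact (measurable_spin_apply (site i)).comp measurable_snd

theorem v_measurable_evid [Countable V] [IsProbabilityMeasure μ] (S : Finset ι) :
    Measurable (fun u : ι → ℝ => evid μ site S (fun i => g i * clamp (u i))) := by
  unfold evid
  exact ((v_measurable_wt_joint S).stronglyMeasurable.integral_prod_right (ν := μ)).measurable

theorem v_measurable_mag_clamp [Countable V] [IsProbabilityMeasure μ] (S : Finset ι) (v : V) :
    Measurable (fun u : ι → ℝ => mag μ site S (fun i => g i * clamp (u i)) v) := by
  unfold mag
  refine Measurable.div ?_ (v_measurable_evid S)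
  have h1 : Measurable (fun p : (ι → ℝ) × (V → Bool) => spin (p.2 v) *
      wt site S (fun i => g i * clamp (p.1 i)) p.2) :=
    ((measurable_spin_apply v).comp measurable_snd).mul (v_measurable_wt_joint S)
  exact (h1.stronglyMeasurable.integral_prod_right (ν := μ)).measurable

theorem abs_vclamp_lt (h0 : ∀ i, 0 ≤ g i) (h1 : ∀ i, g i < 1) (x : ℝ) (i : ι) :
    |g i * clamp x| < 1 := by
  rw [abs_mul, abs_of_nonneg (h0 i)]
  calc g i * |clamp x| ≤ g i * 1 := mul_le_mul_of_nonneg_left (abs_clamp_le x) (h0 i)
    _ < 1 := by linarith [h1 i]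

theorem v_evid_le [IsProbabilityMeasure μ] (h0 : ∀ i, 0 ≤ g i) (h1 : ∀ i, g i < 1) (u : ι → ℝ) :
    |evid μ site S (fun i => g i * clamp (u i))| ≤ 2 ^ S.card := by
  have hZ := evid_pos (μ := μ) (site := site) (S := S) (c := fun i => g i * clamp (u i))
    (fun i _ => abs_vclamp_lt h0 h1 _ i)
  rw [abs_of_pos hZ]
  unfold evid
  calc ∫ σ, wt site S (fun i => g i * clamp (u i)) σ ∂μ ≤ ∫ _, (2 : ℝ) ^ S.card ∂μ := by
        refine integral_mono integrable_wt (integrable_const _) fun σ => ?_
        unfold wt
        calc ∏ i ∈ S, (1 + g i * clamp (u i) * spin (σ (site i))) ≤ ∏ _i ∈ S, (2 : ℝ) := by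
              refine Finset.prod_le_prod (fun i _ => ?_) fun i _ => ?_
              · have h2 : |g i * clamp (u i) * spin (σ (site i))| < 1 := by
                  rw [abs_mul, abs_spin, mul_one]; exact abs_vclamp_lt h0 h1 _ i
                linarith [(abs_lt.1 h2).1]
              · have h2 : |g i * clamp (u i) * spin (σ (site i))| < 1 := by
                  rw [abs_mul, abs_spin, mul_one]; exact abs_vclamp_lt h0 h1 _ i
                linarith [(abs_lt.1 h2).2]
          _ = 2 ^ S.card := by simp
    _ = 2 ^ S.card := by simp

open Classical in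
/-- Density form of the law of the sampler. -/
theorem vlaw_density [Countable V] [IsProbabilityMeasure μ] (h0 : ∀ i, 0 ≤ g i)
    (h1 : ∀ i, g i < 1) (S : Finset ι) (hr : Set.InjOn r (S : Set ι)) :
    ∀ {F : (ι → ℝ) → ℝ}, Measurable F → (∃ C, ∀ x, |F x| ≤ C) → DependsOn F (S : Set ι) →
    ∫ u, F (vsamp μ g site r S u) ∂(Pu ι) =
      ∫ u, F u * evid μ site S (fun i => g i * clamp (u i)) ∂(Pu ι) := by
  induction S using Finset.induction_on_max_value r with
  | empty =>
    intro F hF hb hS
    refine integral_congr_ae (Filter.Eventually.of_forall fun u => ?_)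
    have e1 : evid μ site (∅ : Finset ι) (fun i => g i * clamp (u i)) = 1 := by
      unfold evid wt; simp
    simp only [e1, mul_one]
    exact hS (fun i hi => by simp at hi)
  | insert e S heS hmax ih =>
    intro F hF hb hS
    obtain ⟨C, hC⟩ := hb
    have hr' : Set.InjOn r (S : Set ι) := hr.mono (by simp)
    have hlt : ∀ i ∈ S, r i < r e := by
      intro i hi
      refine lt_of_le_of_ne (hmax i hi) fun h => ?_
      have := hr (by simp [hi]) (by simp) h
      subst this
      exact heS hi
    have hpree : pre r (insert e S) e = S := by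
      ext j
      rw [mem_pre, Finset.mem_insert]
      constructor
      · rintro ⟨h | h, h'⟩
        · subst h; exact absurd h' (lt_irrefl _)
        · exact h
      · intro h; exact ⟨Or.inr h, hlt j h⟩
    have hprei : ∀ i ∈ S, pre r (insert e S) i = pre r S i := by
      intro i hi
      ext j
      rw [mem_pre, mem_pre, Finset.mem_insert]
      constructor
      · rintro ⟨h | h, h'⟩
        · subst h; exact absurd h' (hlt i hi).asymm
        · exact ⟨h, h'⟩
      · rintro ⟨h, h'⟩; exact ⟨Or.inr h, h'⟩
    -- value of the sampler after updating the label of `e`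
    have hsamp : ∀ (u : ι → ℝ) (x : ℝ), F (vsamp μ g site r (insert e S) (Function.update u e x)) =
        F (Function.update (vsamp μ g site r S u) e
          (T (g e * mag μ site S (fun i => g i * vsamp μ g site r S u i) (site e)) x)) := by
      intro u x
      refine hS fun i hi => ?_
      rw [Finset.mem_coe, Finset.mem_insert] at hi
      have hS' : ∀ i ∈ S, vsamp μ g site r (insert e S) (Function.update u e x) i =
          vsamp μ g site r S u i := by
        intro k hk
        refine vsamp_congr' μ site (hprei k hk) (fun j hj => ?_) ?_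
        · rw [hprei k hk, mem_pre] at hj
          rw [Function.update_of_ne]
          intro hje; rw [hje] at hj; exact heS hj.1
        · rw [Function.update_of_ne]
          intro hje; rw [hje] at hk; exact heS hk
      by_cases hie : i = e
      · subst hie
        rw [Function.update_self, vsamp_eq, hpree, Function.update_self]
        congr 2
        refine mag_congr (fun j hj => ?_) _
        rw [hS' j hj]
      · rw [Function.update_of_ne hie]
        rcases hi with h | h
        · exact absurd h hie
        · exact hS' i h
    have hmeas_samp : ∀ (S : Finset ι), Measurable (fun u : ι → ℝ => vsamp μ g site r S u) := by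
      intro S
      refine measurable_pi_lambda _ fun i => ?_
      exact measurable_vsamp (g := fun _ => g) (r := fun _ => r) (u := fun u : ι → ℝ => u)
        (fun i => measurable_const) (fun i j => MeasurableSet.const _)
        (fun i => measurable_pi_apply i) i
    -- the integrated function
    set F' : (ι → ℝ) → ℝ := fun v => ∫ s, F (Function.update v e s) *
      (1 + g e * mag μ site S (fun i => g i * clamp (v i)) (site e) * clamp s) ∂unif with hF'
    have hmagle : ∀ v : ι → ℝ, |mag μ site S (fun i => g i * clamp (v i)) (site e)| ≤ 1 :=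
      fun v => abs_mag_le (fun i _ => abs_vclamp_lt h0 h1 _ i) _
    have hfac : ∀ (v : ι → ℝ) (s : ℝ),
        |1 + g e * mag μ site S (fun i => g i * clamp (v i)) (site e) * clamp s| ≤ 2 := by
      intro v s
      have h2 : |g e * mag μ site S (fun i => g i * clamp (v i)) (site e) * clamp s| ≤ 1 := by
        rw [abs_mul, abs_mul, abs_of_nonneg (h0 e)]
        have := mul_le_mul (mul_le_mul (h1 e).le (hmagle v) (abs_nonneg _) zero_le_one)
          (abs_clamp_le s) (abs_nonneg _) (by norm_num)
        simpa using this
      calc |1 + g e * mag μ site S (fun i => g i * clamp (v i)) (site e) * clamp s|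
          ≤ |(1 : ℝ)| + |g e * mag μ site S (fun i => g i * clamp (v i)) (site e) * clamp s| :=
            abs_add_le _ _
        _ ≤ 2 := by rw [abs_one]; linarith
    have hC0 : 0 ≤ C := (abs_nonneg _).trans (hC 0)
    have hjoint : Measurable (fun p : (ι → ℝ) × ℝ => F (Function.update p.1 e p.2) *
      (1 + g e * mag μ site S (fun i => g i * clamp (p.1 i)) (site e) * clamp p.2)) := by
      refine (hF.comp measurable_update').mul (measurable_const.add ?_)
      exact ((measurable_const.mul ((v_measurable_mag_clamp S (site e)).comp measurable_fst))).mul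
        (measurable_clamp.comp measurable_snd)
    have hF'm : Measurable F' := (hjoint.stronglyMeasurable.integral_prod_right (ν := unif)).measurable
    have hF'b : ∃ C, ∀ x, |F' x| ≤ C := by
      refine ⟨C * 2, fun v => ?_⟩
      rw [hF', ← Real.norm_eq_abs]
      refine (norm_integral_le_of_norm_le_const (C := C * 2)
        (Filter.Eventually.of_forall fun s => ?_)).trans (by simp)
      rw [Real.norm_eq_abs, abs_mul]
      exact mul_le_mul (hC _) (hfac v s) (abs_nonneg _) hC0
    have hF'dep : DependsOn F' (S : Set ι) := by
      intro v v' h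
      rw [hF']
      refine integral_congr_ae (Filter.Eventually.of_forall fun s => ?_)
      simp only
      congr 1
      · refine hS fun i hi => ?_
        by_cases hie : i = e
        · subst hie; simp
        · rw [Function.update_of_ne hie, Function.update_of_ne hie]
          rw [Finset.mem_coe, Finset.mem_insert] at hi
          exact h i (hi.resolve_left hie)
      · congr 3
        exact mag_congr (fun i hi => by rw [h i hi]) _
    have hstep1 : ∫ u, F (vsamp μ g site r (insert e S) u) ∂(Pu ι) =
        ∫ u, F' (vsamp μ g site r S u) ∂(Pu ι) := by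
      refine (integral_resample (F := fun u => F (vsamp μ g site r (insert e S) u)) e
        (hF.comp (hmeas_samp (insert e S))) ⟨C, fun x => hC _⟩).trans ?_
      refine integral_congr_ae (Filter.Eventually.of_forall fun u => ?_)
      simp only
      have hsm : ∀ i, clamp (vsamp μ g site r S u i) = vsamp μ g site r S u i :=
        fun i => clamp_of_abs_le (abs_vsamp_le h0 h1 i)
      have ha : |g e * mag μ site S (fun i => g i * vsamp μ g site r S u i) (site e)| < 1 := by
        rw [abs_mul, abs_of_nonneg (h0 e)]
        have h3 : |mag μ site S (fun i => g i * vsamp μ g site r S u i) (site e)| ≤ 1 := by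
          refine abs_mag_le (fun i _ => ?_) _
          rw [← hsm i]; exact abs_vclamp_lt h0 h1 _ i
        calc g e * _ ≤ g e * 1 := mul_le_mul_of_nonneg_left h3 (h0 e)
          _ < 1 := by linarith [h1 e]
      calc ∫ x, F (vsamp μ g site r (insert e S) (Function.update u e x)) ∂unif
          = ∫ x, (fun s => F (Function.update (vsamp μ g site r S u) e s))
              (T (g e * mag μ site S (fun i => g i * vsamp μ g site r S u i) (site e)) x) ∂unif := by
            refine integral_congr_ae (Filter.Eventually.of_forall fun x => ?_)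
            exact hsamp u x
        _ = ∫ s, (fun s => F (Function.update (vsamp μ g site r S u) e s)) s *
              (1 + g e * mag μ site S (fun i => g i * vsamp μ g site r S u i) (site e) * s) ∂unif :=
            integral_T ha (fun s => F (Function.update (vsamp μ g site r S u) e s))
        _ = F' (vsamp μ g site r S u) := by
            rw [hF']
            refine integral_congr_ae ?_
            filter_upwards [ae_unif] with s hs
            simp only [hsm, clamp_of_abs_le hs]
    have hstep2 : ∫ u, F u * evid μ site (insert e S) (fun i => g i * clamp (u i)) ∂(Pu ι) =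
        ∫ u, F' u * evid μ site S (fun i => g i * clamp (u i)) ∂(Pu ι) := by
      have hbd : ∃ C', ∀ x : ι → ℝ,
          |F x * evid μ site (insert e S) (fun i => g i * clamp (x i))| ≤ C' :=
        ⟨C * 2 ^ (insert e S).card, fun x => by
          rw [abs_mul]
          exact mul_le_mul (hC x) (v_evid_le h0 h1 x) (abs_nonneg _) hC0⟩
      refine (integral_resample (F := fun u => F u * evid μ site (insert e S)
        (fun i => g i * clamp (u i))) e (hF.mul (v_measurable_evid (insert e S))) hbd).trans ?_
      · refine integral_congr_ae (Filter.Eventually.of_forall fun u => ?_)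
        simp only
        rw [hF', ← integral_mul_const]
        refine integral_congr_ae (Filter.Eventually.of_forall fun s => ?_)
        simp only
        rw [evid_insert heS _ (fun i _ => abs_vclamp_lt h0 h1 _ i), Function.update_self]
        have e1 : evid μ site S (fun i => g i * clamp (Function.update u e s i)) =
            evid μ site S (fun i => g i * clamp (u i)) := by
          refine evid_congr fun i hi => ?_
          rw [Function.update_of_ne]; rintro rfl; exact heS hi
        have e2 : mag μ site S (fun i => g i * clamp (Function.update u e s i)) (site e) =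
            mag μ site S (fun i => g i * clamp (u i)) (site e) := by
          refine mag_congr (fun i hi => ?_) _
          rw [Function.update_of_ne]; rintro rfl; exact heS hi
        rw [e1, e2]
        ring
    rw [hstep1, hstep2]
    exact ih hr' hF'm hF'b hF'dep

theorem vsamp_dirac [Countable V] (h0 : ∀ i, 0 ≤ g i) (h1 : ∀ i, g i < 1) (σ : V → Bool)
    (u : ι → ℝ) (e : ι) :
    vsamp (Measure.dirac σ) g site r S u e = T (g e * spin (σ (site e))) (u e) := by
  rw [vsamp_eq, mag_dirac]
  intro i _
  exact abs_gmul_lt (x := vsamp (Measure.dirac σ) g site r S u) h0 h1 (abs_vsamp_le h0 h1 i)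

theorem vlaw_samp [Countable V] [IsProbabilityMeasure μ] (h0 : ∀ i, 0 ≤ g i) (h1 : ∀ i, g i < 1)
    (hr : Set.InjOn r (S : Set ι)) {F : (ι → ℝ) → ℝ} (hF : Measurable F)
    (hb : ∃ C, ∀ x, |F x| ≤ C) (hS : DependsOn F (S : Set ι)) :
    ∫ u, F (vsamp μ g site r S u) ∂(Pu ι) =
      ∫ σ, ∫ u, F (fun e => T (g e * spin (σ (site e))) (u e)) ∂(Pu ι) ∂μ := by
  obtain ⟨C, hC⟩ := hb
  have hC0 : 0 ≤ C := (abs_nonneg _).trans (hC 0)
  rw [vlaw_density h0 h1 S hr hF ⟨C, hC⟩ hS]
  have h2 : ∀ σ : V → Bool, ∫ u, F (fun e => T (g e * spin (σ (site e))) (u e)) ∂(Pu ι) =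
      ∫ u, F u * wt site S (fun i => g i * clamp (u i)) σ ∂(Pu ι) := by
    intro σ
    have h3 := vlaw_density (μ := Measure.dirac σ) (site := site) h0 h1 S hr hF ⟨C, hC⟩ hS
    have h4 : ∀ u : ι → ℝ, vsamp (Measure.dirac σ) g site r S u =
        fun e => T (g e * spin (σ (site e))) (u e) := fun u => funext fun e => vsamp_dirac h0 h1 σ u e
    simp only [h4] at h3
    rw [h3]
    refine integral_congr_ae (Filter.Eventually.of_forall fun u => ?_)
    simp only
    congr 1
    unfold evid
    have hm : Measurable (wt site S (fun i => g i * clamp (u i))) := by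
      classical exact meas_of_dep dependsOn_wt
    rw [integral_dirac' _ _ hm.stronglyMeasurable]
  simp only [h2]
  have hint : Integrable (Function.uncurry fun (u : ι → ℝ) (σ : V → Bool) =>
      F u * wt site S (fun i => g i * clamp (u i)) σ) ((Pu ι).prod μ) := by
    refine Integrable.of_bound (C := C * 2 ^ S.card) ?_ (Filter.Eventually.of_forall fun p => ?_)
    · exact ((hF.comp measurable_fst).mul (v_measurable_wt_joint S)).aestronglyMeasurable
    · rw [Function.uncurry, Real.norm_eq_abs, abs_mul]
      refine mul_le_mul (hC _) ?_ (abs_nonneg _) hC0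
      have := v_evid_le (μ := Measure.dirac p.2) (site := site) (S := S) h0 h1 p.1
      unfold evid at this
      have hm : Measurable (wt site S (fun i => g i * clamp (p.1 i))) := by
        classical exact meas_of_dep dependsOn_wt
      rwa [integral_dirac' _ _ hm.stronglyMeasurable] at this
  rw [integral_integral_swap (μ := Pu ι) (ν := μ) hint |>.symm]
  refine integral_congr_ae (Filter.Eventually.of_forall fun u => ?_)
  simp only
  rw [integral_const_mul]
  rfl

end Law

end Vale.Agent.P161
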