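import Mathlib
import Vale.Agent.P161E.VSamp

/-!
# Two samplers driven by the same labels: the one-site inequality
-/

open MeasureTheory

namespace Vale.Agent.P161

universe u

section Pair

variable {V : Type u} {ι : Type*} {R : Type*} [LinearOrder R] {μ μ' : Measure (V → Bool)}
  {g g' : ι → ℝ} {site : ι → V} {r : ι → R} {S : Finset ι}

/-- The observations produced by the sampler, multiplied by the strengths. -/
noncomputable def vobs (μ : Measure (V → Bool)) (g : ι → ℝ) (site : ι → V) (r : ι → R)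
    (S : Finset ι) (u : ι → ℝ) (i : ι) : ℝ := g i * vsamp μ g site r S u i

/-- The posterior mean of the spin at `v` given the observations produced by the sampler. -/
noncomputable def vmag (μ : Measure (V → Bool)) (g : ι → ℝ) (site : ι → V) (r : ι → R)
    (S : Finset ι) (u : ι → ℝ) (v : V) : ℝ := mag μ site S (vobs μ g site r S u) v

/-- The posterior covariance of the spins at `v` and `w`. -/
noncomputable def vcov (μ : Measure (V → Bool)) (g : ι → ℝ) (site : ι → V) (r : ι → R)
    (S : Finset ι) (u : ι → ℝ) (v w : V) : ℝ := cov μ site S (vobs μ g site r S u) v w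

theorem abs_vobs_lt [IsProbabilityMeasure μ] (h0 : ∀ i, 0 ≤ g i) (h1 : ∀ i, g i ≤ 1 / 2)
    (u : ι → ℝ) (i : ι) : |vobs μ g site r S u i| < 1 :=
  abs_gmul_lt (x := vsamp μ g site r S u) h0 (fun i => lt_of_le_of_lt (h1 i) (by norm_num))
    (abs_vsamp_le h0 (fun i => lt_of_le_of_lt (h1 i) (by norm_num)) i)

theorem abs_vmag_le [IsProbabilityMeasure μ] (h0 : ∀ i, 0 ≤ g i) (h1 : ∀ i, g i ≤ 1 / 2)
    (u : ι → ℝ) (v : V) : |vmag μ g site r S u v| ≤ 1 :=
  abs_mag_le (fun i _ => abs_vobs_lt h0 h1 u i) v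

open Classical in
theorem vsamp_insert_of_mem {e : ι} (h : ∀ i ∈ S, r i < r e) (u : ι → ℝ) (x : ℝ) {i : ι}
    (hi : i ∈ S) :
    vsamp μ g site r (insert e S) (Function.update u e x) i = vsamp μ g site r S u i := by
  have hie := h i hi
  refine vsamp_congr' μ site (pre_insert_of_lt hie.le) (fun j hj => ?_) ?_
  · rw [Function.update_of_ne]
    rintro rfl
    rw [pre_insert_of_lt hie.le, mem_pre] at hj
    exact lt_irrefl _ (hie.trans hj.2)
  · rw [Function.update_of_ne]
    rintro rfl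
    exact lt_irrefl _ hie

open Classical in
theorem vsamp_insert_self {e : ι} (h : ∀ i ∈ S, r i < r e) (u : ι → ℝ) (x : ℝ) :
    vsamp μ g site r (insert e S) (Function.update u e x) e =
      T (g e * vmag μ g site r S u (site e)) x := by
  rw [vsamp_eq, pre_insert_self h, Function.update_self]
  congr 2
  unfold vmag
  refine mag_congr (fun i hi => ?_) _
  rw [vsamp_insert_of_mem h u x hi]
  rfl

open Classical in
/-- The effect of one more observation on the posterior means. -/
theorem vmag_insert [IsProbabilityMeasure μ] (h0 : ∀ i, 0 ≤ g i) (h1 : ∀ i, g i ≤ 1 / 2)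
    {e : ι} (h : ∀ i ∈ S, r i < r e) (u : ι → ℝ) (x : ℝ) (v : V) :
    vmag μ g site r (insert e S) (Function.update u e x) v =
      vmag μ g site r S u v +
        incr (g e) (vmag μ g site r S u (site e)) (vcov μ g site r S u v (site e)) x := by
  have he : e ∉ S := fun he => lt_irrefl _ (h e he)
  have key : vmag μ g site r (insert e S) (Function.update u e x) v =
      mag μ site (insert e S) (Function.update (vobs μ g site r S u) e
        (g e * T (g e * mag μ site S (vobs μ g site r S u) (site e)) x)) v := by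
    unfold vmag
    refine mag_congr (fun i hi => ?_) _
    rw [Finset.mem_insert] at hi
    rcases hi with rfl | hi
    · rw [Function.update_self]
      unfold vobs
      rw [vsamp_insert_self h]
      rfl
    · rw [Function.update_of_ne (by rintro rfl; exact he hi)]
      unfold vobs
      rw [vsamp_insert_of_mem h u x hi]
  rw [key]
  exact mag_step (h0 e) (h1 e) (fun i _ => abs_vobs_lt h0 h1 u i) he v x

theorem measurable_vobs_param [Countable V] [IsProbabilityMeasure μ] {Ω : Type*}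
    [MeasurableSpace Ω] {g : Ω → ι → ℝ} {r : Ω → ι → R} {u : Ω → ι → ℝ}
    (hg : ∀ i, Measurable fun ω => g ω i)
    (hr : ∀ i j, MeasurableSet {ω | r ω i < r ω j}) (hu : ∀ i, Measurable fun ω => u ω i)
    (i : ι) : Measurable fun ω => vobs μ (g ω) site (r ω) S (u ω) i := by
  unfold vobs
  exact (hg i).mul (measurable_vsamp hg hr hu i)

theorem measurable_vmag_param [Countable V] [IsProbabilityMeasure μ] {Ω : Type*}
    [MeasurableSpace Ω] {g : Ω → ι → ℝ} {r : Ω → ι → R} {u : Ω → ι → ℝ}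
    (hg : ∀ i, Measurable fun ω => g ω i)
    (hr : ∀ i j, MeasurableSet {ω | r ω i < r ω j}) (hu : ∀ i, Measurable fun ω => u ω i)
    (v : V) : Measurable fun ω => vmag μ (g ω) site (r ω) S (u ω) v :=
  measurable_mag (fun i => measurable_vobs_param hg hr hu i) v

theorem measurable_cor' [Countable V] [IsProbabilityMeasure μ] {Ω : Type*}
    [MeasurableSpace Ω] {c : Ω → ι → ℝ} (hc : ∀ i, Measurable fun ω => c ω i) (v w : V) :
    Measurable fun ω => cor μ site S (c ω) v w := by
  have hwt : Measurable (fun p : Ω × (V → Bool) => wt site S (c p.1) p.2) := by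
    unfold wt
    refine Finset.measurable_fun_prod _ fun i _ => ?_
    refine measurable_const.add (((hc i).comp measurable_fst).mul ?_)
    exact (measurable_spin_apply (site i)).comp measurable_snd
  unfold cor evid
  refine Measurable.div ?_ ?_
  · have h1 : Measurable (fun p : Ω × (V → Bool) =>
        spin (p.2 v) * spin (p.2 w) * wt site S (c p.1) p.2) :=
      (((measurable_spin_apply v).comp measurable_snd).mul
        ((measurable_spin_apply w).comp measurable_snd)).mul hwt
    exact (h1.stronglyMeasurable.integral_prod_right (ν := μ)).measurable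
  · exact (hwt.stronglyMeasurable.integral_prod_right (ν := μ)).measurable

theorem measurable_vcov_param [Countable V] [IsProbabilityMeasure μ] {Ω : Type*}
    [MeasurableSpace Ω] {g : Ω → ι → ℝ} {r : Ω → ι → R} {u : Ω → ι → ℝ}
    (hg : ∀ i, Measurable fun ω => g ω i)
    (hr : ∀ i j, MeasurableSet {ω | r ω i < r ω j}) (hu : ∀ i, Measurable fun ω => u ω i)
    (v w : V) : Measurable fun ω => vcov μ (g ω) site (r ω) S (u ω) v w := by
  have hc := fun i => measurable_vobs_param (μ := μ) (site := site) (S := S) hg hr hu i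
  unfold vcov cov
  exact (measurable_cor' hc v w).sub ((measurable_mag hc v).mul (measurable_mag hc w))

theorem measurable_vmag [Countable V] [IsProbabilityMeasure μ] (v : V) :
    Measurable fun u => vmag μ g site r S u v :=
  measurable_vmag_param (g := fun _ => g) (r := fun _ => r) (u := fun u => u)
    (fun _ => measurable_const) (fun _ _ => MeasurableSet.const _)
    (fun i => measurable_pi_apply i) v

theorem measurable_vcov [Countable V] [IsProbabilityMeasure μ] (v w : V) :
    Measurable fun u => vcov μ g site r S u v w :=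
  measurable_vcov_param (g := fun _ => g) (r := fun _ => r) (u := fun u => u)
    (fun _ => measurable_const) (fun _ _ => MeasurableSet.const _)
    (fun i => measurable_pi_apply i) v w

theorem abs_cov_le_two {c : ι → ℝ} [IsProbabilityMeasure μ] (hc : ∀ i ∈ S, |c i| < 1) (v w : V) :
    |cov μ site S c v w| ≤ 2 := by
  have h1 := abs_cor_le (μ := μ) (site := site) hc v w
  have h2 := abs_mag_le (μ := μ) (site := site) hc v
  have h3 := abs_mag_le (μ := μ) (site := site) hc w
  unfold cov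
  have h4 : |mag μ site S c v * mag μ site S c w| ≤ 1 := by
    rw [abs_mul]
    exact mul_le_one₀ h2 (abs_nonneg _) h3
  calc |cor μ site S c v w - mag μ site S c v * mag μ site S c w| ≤ _ := abs_sub _ _
    _ ≤ 2 := by linarith

theorem abs_vcov_le_two [IsProbabilityMeasure μ] (h0 : ∀ i, 0 ≤ g i) (h1 : ∀ i, g i ≤ 1 / 2)
    (u : ι → ℝ) (v w : V) : |vcov μ g site r S u v w| ≤ 2 :=
  abs_cov_le_two (fun i _ => abs_vobs_lt h0 h1 u i) v w

/-- The bracket in the one-site inequality. -/
noncomputable def qq (a b J J' m m' : ℝ) : ℝ :=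
  if a = 0 then 4 * (b * J') ^ 2
    else 8 * (a * J - b * J') ^ 2 + 32 * (b * J') ^ 2 * (m - m') ^ 2

theorem qq_nonneg (a b J J' m m' : ℝ) : 0 ≤ qq a b J J' m m' := by
  unfold qq
  split_ifs <;> positivity

theorem incr_zero (m J x : ℝ) : incr 0 m J x = 0 := by unfold incr; simp

/-- the increments of the two systems, for observations of strengths `a γ` and `b γ` with
`a, b ∈ {0, 1}` -/
theorem abs_incr_sub_le' {γ a b m m' J J' : ℝ} (hγ0 : 0 ≤ γ) (hγ1 : γ ≤ 1 / 2)
    (ha : a = 0 ∨ a = 1) (hb : b = 0 ∨ b = 1) (hm : |m| ≤ 1) (hm' : |m'| ≤ 1) (x : ℝ) :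
    |incr (a * γ) m J x - incr (b * γ) m' J' x| ≤
      2 * γ * |a * J - b * J'| + 4 * γ * |b * J'| * |m - m'| := by
  rcases ha with rfl | rfl <;> rcases hb with rfl | rfl
  · simp [incr_zero]
  · have h := abs_incr_le (J := J') hγ0 hγ1 hm' x
    have h2 : 0 ≤ 4 * γ * |J'| * |m - m'| := by positivity
    simp only [zero_mul, one_mul, incr_zero, zero_sub, abs_neg]
    linarith
  · have h := abs_incr_le (J := J) hγ0 hγ1 hm x
    simp only [zero_mul, one_mul, incr_zero, sub_zero, abs_zero, mul_zero, add_zero]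
    exact h
  · simp only [one_mul]
    exact abs_incr_sub_le hγ0 hγ1 hm hm' x

theorem sq_incr_sub_le {γ a b m m' J J' : ℝ} (hγ0 : 0 ≤ γ) (hγ1 : γ ≤ 1 / 2)
    (ha : a = 0 ∨ a = 1) (hb : b = 0 ∨ b = 1) (hm : |m| ≤ 1) (hm' : |m'| ≤ 1) (x : ℝ) :
    (incr (a * γ) m J x - incr (b * γ) m' J' x) ^ 2 ≤ γ ^ 2 * qq a b J J' m m' := by
  have h := abs_incr_sub_le' (J := J) (J' := J') hγ0 hγ1 ha hb hm hm' x
  unfold qq
  split_ifs with ha0
  · subst ha0
    have h2 : |incr (b * γ) m' J' x| ≤ 2 * γ * |b * J'| := by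
      rcases hb with rfl | rfl
      · simp [incr_zero]
      · simp only [one_mul]
        exact abs_incr_le hγ0 hγ1 hm' x
    have h3 : (incr (0 * γ) m J x - incr (b * γ) m' J' x) ^ 2 ≤ (2 * γ * |b * J'|) ^ 2 := by
      rw [zero_mul, incr_zero, zero_sub, neg_sq, ← sq_abs]
      exact pow_le_pow_left₀ (abs_nonneg _) h2 2
    refine h3.trans (le_of_eq ?_)
    rw [mul_pow, sq_abs]
    ring
  · have h1 : (incr (a * γ) m J x - incr (b * γ) m' J' x) ^ 2 ≤
        (2 * γ * |a * J - b * J'| + 4 * γ * |b * J'| * |m - m'|) ^ 2 := by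
      rw [← sq_abs (incr (a * γ) m J x - incr (b * γ) m' J' x)]
      exact pow_le_pow_left₀ (abs_nonneg _) h 2
    refine h1.trans ?_
    have e1 : |a * J - b * J'| ^ 2 = (a * J - b * J') ^ 2 := sq_abs _
    have e2 : |b * J'| ^ 2 = (b * J') ^ 2 := sq_abs _
    have e3 : |m - m'| ^ 2 = (m - m') ^ 2 := sq_abs _
    rw [← e1, ← e2, ← e3]
    set p := |a * J - b * J'|
    set q := |b * J'|
    set s := |m - m'|
    nlinarith [sq_nonneg (2 * γ * p - 4 * γ * q * s)]

theorem incr_mem {γ a : ℝ} (hγ0 : 0 ≤ γ) (hγ1 : γ ≤ 1 / 2) (ha : a = 0 ∨ a = 1) :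
    0 ≤ a * γ ∧ a * γ ≤ 1 / 2 := by
  rcases ha with rfl | rfl
  · norm_num
  · constructor <;> linarith

/-- One step of the evolution of the difference of the two posterior means, with the other labels
fixed. -/
theorem pair_step {γ a b m m' J J' : ℝ} (hγ0 : 0 ≤ γ) (hγ1 : γ ≤ 1 / 2)
    (ha : a = 0 ∨ a = 1) (hb : b = 0 ∨ b = 1) (hm : |m| ≤ 1) (hm' : |m'| ≤ 1) (D : ℝ) :
    D ^ 2 ≤ ∫ x, (D + (incr (a * γ) m J x - incr (b * γ) m' J' x)) ^ 2 ∂unif ∧
    ∫ x, (D + (incr (a * γ) m J x - incr (b * γ) m' J' x)) ^ 2 ∂unif ≤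
      D ^ 2 + γ ^ 2 * qq a b J J' m m' := by
  obtain ⟨a0, a1⟩ := incr_mem hγ0 hγ1 ha
  obtain ⟨b0, b1⟩ := incr_mem hγ0 hγ1 hb
  set X : ℝ → ℝ := fun x => incr (a * γ) m J x - incr (b * γ) m' J' x with hX
  have hXm : Measurable X := (measurable_incr _ m J).sub (measurable_incr _ m' J')
  have hXi : Integrable X unif := (integrable_incr a0 a1 hm).sub (integrable_incr b0 b1 hm')
  have hX0 : ∫ x, X x ∂unif = 0 := by
    rw [hX, integral_sub (integrable_incr a0 a1 hm) (integrable_incr b0 b1 hm'),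
      integral_incr a0 a1 hm, integral_incr b0 b1 hm', sub_zero]
  have hXb : ∀ x, X x ^ 2 ≤ γ ^ 2 * qq a b J J' m m' :=
    fun x => sq_incr_sub_le hγ0 hγ1 ha hb hm hm' x
  have hXi2 : Integrable (fun x => X x ^ 2) unif := by
    refine Integrable.of_bound (hXm.pow_const 2).aestronglyMeasurable
      (γ ^ 2 * qq a b J J' m m') (Filter.Eventually.of_forall fun x => ?_)
    rw [Real.norm_eq_abs, abs_of_nonneg (sq_nonneg _)]
    exact hXb x
  have hid : ∫ x, (D + X x) ^ 2 ∂unif = D ^ 2 + ∫ x, X x ^ 2 ∂unif := integral_sq_add hXi hXi2 hX0 D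
  have hnn : 0 ≤ ∫ x, X x ^ 2 ∂unif := integral_nonneg fun x => sq_nonneg _
  have hup : ∫ x, X x ^ 2 ∂unif ≤ γ ^ 2 * qq a b J J' m m' := by
    calc ∫ x, X x ^ 2 ∂unif ≤ ∫ _, γ ^ 2 * qq a b J J' m m' ∂unif :=
          integral_mono hXi2 (integrable_const _) hXb
      _ = _ := by simp
  exact ⟨by rw [hid]; linarith, by rw [hid]; linarith⟩

/-- Mean square difference of the posterior means at `v` of the two samplers. -/
noncomputable def pd (μ μ' : Measure (V → Bool)) (g g' : ι → ℝ) (site : ι → V) (r : ι → R)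
    (S : Finset ι) (v : V) : ℝ :=
  ∫ u, (vmag μ g site r S u v - vmag μ' g' site r S u v) ^ 2 ∂(Pu ι)

/-- Expectation of the bracket. -/
noncomputable def pq (μ μ' : Measure (V → Bool)) (g g' : ι → ℝ) (site : ι → V) (r : ι → R)
    (S : Finset ι) (a b : ℝ) (v w : V) : ℝ :=
  ∫ u, qq a b (vcov μ g site r S u v w) (vcov μ' g' site r S u v w)
    (vmag μ g site r S u w) (vmag μ' g' site r S u w) ∂(Pu ι)

theorem measurable_pd [Countable V] [IsProbabilityMeasure μ] [IsProbabilityMeasure μ'] (v : V) :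
    Measurable fun u => (vmag μ g site r S u v - vmag μ' g' site r S u v) ^ 2 :=
  ((measurable_vmag v).sub (measurable_vmag v)).pow_const 2

theorem measurable_qq {Ω : Type*} [MeasurableSpace Ω] {a b J J' m m' : Ω → ℝ}
    (ha : Measurable a) (hb : Measurable b) (hJ : Measurable J) (hJ' : Measurable J')
    (hm : Measurable m) (hm' : Measurable m') :
    Measurable fun ω => qq (a ω) (b ω) (J ω) (J' ω) (m ω) (m' ω) := by
  unfold qq
  refine Measurable.ite (measurableSet_eq_fun ha measurable_const)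
    (((hb.mul hJ').pow_const 2).const_mul 4) ?_
  exact ((((ha.mul hJ).sub (hb.mul hJ')).pow_const 2).const_mul 8).add
    ((((hb.mul hJ').pow_const 2).const_mul 32).mul ((hm.sub hm').pow_const 2))

theorem qq_le {a b J J' m m' : ℝ} (ha : a = 0 ∨ a = 1) (hb : b = 0 ∨ b = 1) (hJ : |J| ≤ 2)
    (hJ' : |J'| ≤ 2) (hm : |m| ≤ 1) (hm' : |m'| ≤ 1) : qq a b J J' m m' ≤ 1000 := by
  have ha1 : |a| ≤ 1 := by rcases ha with rfl | rfl <;> simp
  have hb1 : |b| ≤ 1 := by rcases hb with rfl | rfl <;> simp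
  have h1 : |a * J| ≤ 2 := by
    rw [abs_mul]; nlinarith [abs_nonneg a, abs_nonneg J]
  have h2 : |b * J'| ≤ 2 := by
    rw [abs_mul]; nlinarith [abs_nonneg b, abs_nonneg J']
  have h3 : (a * J - b * J') ^ 2 ≤ 16 := by
    obtain ⟨x1, x2⟩ := abs_le.1 h1
    obtain ⟨y1, y2⟩ := abs_le.1 h2
    nlinarith
  have h4 : (b * J') ^ 2 ≤ 4 := by
    obtain ⟨y1, y2⟩ := abs_le.1 h2
    nlinarith
  have h5 := sq_sub_le_four hm hm'
  have h6 : (b * J') ^ 2 * (m - m') ^ 2 ≤ 4 * 4 :=
    mul_le_mul h4 h5 (sq_nonneg _) (by norm_num)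
  unfold qq
  split_ifs
  · linarith
  · linarith

theorem pd_nonneg (v : V) : 0 ≤ pd μ μ' g g' site r S v := by
  unfold pd
  exact integral_nonneg fun u => sq_nonneg _

section

variable [Countable V] [IsProbabilityMeasure μ] [IsProbabilityMeasure μ']

theorem integrable_pd (h0 : ∀ i, 0 ≤ g i) (h1 : ∀ i, g i ≤ 1 / 2) (h0' : ∀ i, 0 ≤ g' i)
    (h1' : ∀ i, g' i ≤ 1 / 2) (v : V) :
    Integrable (fun u => (vmag μ g site r S u v - vmag μ' g' site r S u v) ^ 2) (Pu ι) := by
  refine integrable_of_meas_bdd (measurable_pd v) (C := 4) fun u => ?_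
  rw [abs_of_nonneg (sq_nonneg _)]
  exact sq_sub_le_four (abs_vmag_le h0 h1 u v) (abs_vmag_le h0' h1' u v)

theorem pd_le_four (h0 : ∀ i, 0 ≤ g i) (h1 : ∀ i, g i ≤ 1 / 2) (h0' : ∀ i, 0 ≤ g' i)
    (h1' : ∀ i, g' i ≤ 1 / 2) (v : V) : pd μ μ' g g' site r S v ≤ 4 := by
  unfold pd
  calc _ ≤ ∫ _, (4 : ℝ) ∂(Pu ι) := by
        refine integral_mono (integrable_pd h0 h1 h0' h1' v) (integrable_const _) fun u => ?_
        exact sq_sub_le_four (abs_vmag_le h0 h1 u v) (abs_vmag_le h0' h1' u v)
    _ = 4 := by simp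

theorem integrable_pq (h0 : ∀ i, 0 ≤ g i) (h1 : ∀ i, g i ≤ 1 / 2) (h0' : ∀ i, 0 ≤ g' i)
    (h1' : ∀ i, g' i ≤ 1 / 2) {a b : ℝ} (ha : a = 0 ∨ a = 1) (hb : b = 0 ∨ b = 1) (v w : V) :
    Integrable (fun u => qq a b (vcov μ g site r S u v w) (vcov μ' g' site r S u v w)
      (vmag μ g site r S u w) (vmag μ' g' site r S u w)) (Pu ι) := by
  refine integrable_of_meas_bdd (measurable_qq measurable_const measurable_const
    (measurable_vcov v w) (measurable_vcov v w) (measurable_vmag w) (measurable_vmag w))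
    (C := 1000) fun u => ?_
  rw [abs_of_nonneg (qq_nonneg _ _ _ _ _ _)]
  exact qq_le ha hb (abs_vcov_le_two h0 h1 u v w) (abs_vcov_le_two h0' h1' u v w)
    (abs_vmag_le h0 h1 u w) (abs_vmag_le h0' h1' u w)

open Classical in
/-- Adding one observation to both systems. -/
theorem pd_insert (h0 : ∀ i, 0 ≤ g i) (h1 : ∀ i, g i ≤ 1 / 2) (h0' : ∀ i, 0 ≤ g' i)
    (h1' : ∀ i, g' i ≤ 1 / 2) {e : ι} (h : ∀ i ∈ S, r i < r e) {γ a b : ℝ} (hγ0 : 0 ≤ γ)
    (hγ1 : γ ≤ 1 / 2) (ha : a = 0 ∨ a = 1) (hb : b = 0 ∨ b = 1) (hga : g e = a * γ)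
    (hgb : g' e = b * γ) (v : V) :
    pd μ μ' g g' site r S v ≤ pd μ μ' g g' site r (insert e S) v ∧
    pd μ μ' g g' site r (insert e S) v ≤ pd μ μ' g g' site r S v +
      γ ^ 2 * pq μ μ' g g' site r S a b v (site e) := by
  have hres : pd μ μ' g g' site r (insert e S) v =
      ∫ u, ∫ x, ((vmag μ g site r S u v - vmag μ' g' site r S u v) +
        (incr (a * γ) (vmag μ g site r S u (site e)) (vcov μ g site r S u v (site e)) x -
         incr (b * γ) (vmag μ' g' site r S u (site e)) (vcov μ' g' site r S u v (site e)) x)) ^ 2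
          ∂unif ∂(Pu ι) := by
    unfold pd
    rw [integral_resample e (measurable_pd v) ⟨4, fun u => by
      rw [abs_of_nonneg (sq_nonneg _)]
      exact sq_sub_le_four (abs_vmag_le h0 h1 u v) (abs_vmag_le h0' h1' u v)⟩]
    refine integral_congr_ae (Filter.Eventually.of_forall fun u => ?_)
    refine integral_congr_ae (Filter.Eventually.of_forall fun x => ?_)
    simp only
    rw [vmag_insert h0 h1 h, vmag_insert h0' h1' h, hga, hgb]
    ring
  have hin : Integrable (fun u => ∫ x, ((vmag μ g site r S u v - vmag μ' g' site r S u v) +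
        (incr (a * γ) (vmag μ g site r S u (site e)) (vcov μ g site r S u v (site e)) x -
         incr (b * γ) (vmag μ' g' site r S u (site e)) (vcov μ' g' site r S u v (site e)) x)) ^ 2
          ∂unif) (Pu ι) := by
    have := integrable_inner (F := fun u => (vmag μ g site r (insert e S) u v -
      vmag μ' g' site r (insert e S) u v) ^ 2) (measurable_pd v) (C := 4) (fun u => by
      rw [abs_of_nonneg (sq_nonneg _)]
      exact sq_sub_le_four (abs_vmag_le h0 h1 u v) (abs_vmag_le h0' h1' u v)) e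
    refine this.congr (Filter.Eventually.of_forall fun u => ?_)
    refine integral_congr_ae (Filter.Eventually.of_forall fun x => ?_)
    simp only
    rw [vmag_insert h0 h1 h, vmag_insert h0' h1' h, hga, hgb]
    ring
  have hst := fun u => pair_step (γ := γ) (a := a) (b := b) (J := vcov μ g site r S u v (site e))
    (J' := vcov μ' g' site r S u v (site e)) hγ0 hγ1 ha hb
    (abs_vmag_le (μ := μ) (site := site) (r := r) (S := S) h0 h1 u (site e))
    (abs_vmag_le (μ := μ') (site := site) (r := r) (S := S) h0' h1' u (site e))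
    (vmag μ g site r S u v - vmag μ' g' site r S u v)
  rw [hres]
  constructor
  · unfold pd
    exact integral_mono (integrable_pd h0 h1 h0' h1' v) hin fun u => (hst u).1
  · have hint2 := (integrable_pq (μ := μ) (μ' := μ') (site := site) (r := r) (S := S)
      h0 h1 h0' h1' ha hb v (site e)).const_mul (γ ^ 2)
    calc _ ≤ ∫ u, ((vmag μ g site r S u v - vmag μ' g' site r S u v) ^ 2 +
          γ ^ 2 * qq a b (vcov μ g site r S u v (site e)) (vcov μ' g' site r S u v (site e))
            (vmag μ g site r S u (site e)) (vmag μ' g' site r S u (site e))) ∂(Pu ι) :=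
          integral_mono hin ((integrable_pd h0 h1 h0' h1' v).add hint2) fun u => (hst u).2
      _ = _ := by
          rw [integral_add (integrable_pd h0 h1 h0' h1' v) hint2, integral_const_mul]
          rfl

theorem pd_insert' {S' : Finset ι} (h0 : ∀ i, 0 ≤ g i) (h1 : ∀ i, g i ≤ 1 / 2)
    (h0' : ∀ i, 0 ≤ g' i) (h1' : ∀ i, g' i ≤ 1 / 2) {e : ι}
    (hS' : ∀ i, i ∈ S' ↔ i = e ∨ i ∈ S) (h : ∀ i ∈ S, r i < r e) {γ a b : ℝ} (hγ0 : 0 ≤ γ)
    (hγ1 : γ ≤ 1 / 2) (ha : a = 0 ∨ a = 1) (hb : b = 0 ∨ b = 1) (hga : g e = a * γ)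
    (hgb : g' e = b * γ) (v : V) {w : V} (hw : site e = w) :
    pd μ μ' g g' site r S v ≤ pd μ μ' g g' site r S' v ∧
    pd μ μ' g g' site r S' v ≤ pd μ μ' g g' site r S v +
      γ ^ 2 * pq μ μ' g g' site r S a b v w := by
  classical
  subst hw
  have hS : S' = @insert _ _ (@Finset.instInsert ι fun a b => Classical.propDecidable (a = b))
      e S := by
    ext i
    rw [hS']
    simp
  rw [hS]
  exact pd_insert h0 h1 h0' h1' h hγ0 hγ1 ha hb hga hgb v

end

end Pair

end Vale.Agent.P161
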