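import Mathlib
import Vale.Agent.P161E.Pair
import Vale.Agent.P161.Labels

/-!
# Evolution of the difference of two samplers with random order: finite volume
-/

open MeasureTheory

namespace Vale.Agent.P161

universe u

section Lo

variable {V : Type u} {ι : Type*} {R : Type*} [LinearOrder R] {μ μ' : Measure (V → Bool)}
  {g g' : ι → ℝ} {site : ι → V} {r : ι → R} {S B : Finset ι}

open Classical in
/-- The events of `B` before the time `ρ`. -/
noncomputable def lo (r : ι → R) (B : Finset ι) (ρ : R) : Finset ι := B.filter (fun e => r e < ρ)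

theorem mem_lo {e : ι} {ρ : R} : e ∈ lo r B ρ ↔ e ∈ B ∧ r e < ρ := by
  classical
  simp [lo]

theorem pre_eq_lo (r : ι → R) (B : Finset ι) (e : ι) : pre r B e = lo r B (r e) := by
  ext j
  rw [mem_pre, mem_lo]

theorem pre_lo {i : ι} {ρ : R} (hi : r i < ρ) : pre r (lo r B ρ) i = pre r B i := by
  ext j
  rw [mem_pre, mem_pre, mem_lo]
  exact ⟨fun h => ⟨h.1.1, h.2⟩, fun h => ⟨⟨h.1, h.2.trans hi⟩, h.2⟩⟩

theorem vsamp_lo (μ : Measure (V → Bool)) (g : ι → ℝ) (site : ι → V) (u : ι → ℝ) {i : ι} {ρ : R}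
    (hi : r i < ρ) : vsamp μ g site r (lo r B ρ) u i = vsamp μ g site r B u i :=
  vsamp_congr' μ site (pre_lo hi) (fun _ _ => rfl) rfl

theorem vmag_lo (μ : Measure (V → Bool)) (g : ι → ℝ) (site : ι → V) (u : ι → ℝ) (ρ : R) (v : V) :
    vmag μ g site r (lo r B ρ) u v = mag μ site (lo r B ρ) (vobs μ g site r B u) v := by
  unfold vmag
  refine mag_congr (fun i hi => ?_) v
  unfold vobs
  rw [vsamp_lo μ g site u (mem_lo.1 hi).2]

theorem vcov_lo (μ : Measure (V → Bool)) (g : ι → ℝ) (site : ι → V) (u : ι → ℝ) (ρ : R)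
    (v w : V) :
    vcov μ g site r (lo r B ρ) u v w = cov μ site (lo r B ρ) (vobs μ g site r B u) v w := by
  have h : ∀ i ∈ lo r B ρ, vobs μ g site r (lo r B ρ) u i = vobs μ g site r B u i := by
    intro i hi
    unfold vobs
    rw [vsamp_lo μ g site u (mem_lo.1 hi).2]
  unfold vcov cov
  rw [mag_congr h v, mag_congr h w, cor_congr h]

theorem wt_lo_eq (r : ι → R) (B : Finset ι) (ρ : R) (c : ι → ℝ) (σ : V → Bool) :
    wt site (lo r B ρ) c σ =
      ∏ i ∈ B, (if r i < ρ then (1 + c i * spin (σ (site i))) else 1) := by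
  classical
  unfold wt lo
  rw [Finset.prod_filter]

section meas

variable [Countable V] [IsProbabilityMeasure μ] {Ω : Type*} [MeasurableSpace Ω]
  {c : Ω → ι → ℝ} {r : Ω → ι → R} {ρ : Ω → R}

omit [Countable V] in
theorem measurable_wt_lo (hr : ∀ i, MeasurableSet {ω | r ω i < ρ ω})
    (hc : ∀ i, Measurable fun ω => c ω i) :
    Measurable (fun p : Ω × (V → Bool) => wt site (lo (r p.1) B (ρ p.1)) (c p.1) p.2) := by
  simp only [wt_lo_eq]
  refine Finset.measurable_fun_prod _ fun i _ => ?_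
  refine Measurable.ite ?_ ?_ measurable_const
  · exact (hr i).preimage measurable_fst
  · refine measurable_const.add (((hc i).comp measurable_fst).mul ?_)
    exact (measurable_spin_apply (site i)).comp measurable_snd

theorem measurable_mag_lo (hr : ∀ i, MeasurableSet {ω | r ω i < ρ ω})
    (hc : ∀ i, Measurable fun ω => c ω i) (v : V) :
    Measurable fun ω => mag μ site (lo (r ω) B (ρ ω)) (c ω) v := by
  have hwt := measurable_wt_lo (site := site) (B := B) hr hc
  unfold mag evid
  refine Measurable.div ?_ ?_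
  · have h1 : Measurable (fun p : Ω × (V → Bool) => spin (p.2 v) *
        wt site (lo (r p.1) B (ρ p.1)) (c p.1) p.2) :=
      ((measurable_spin_apply v).comp measurable_snd).mul hwt
    exact (h1.stronglyMeasurable.integral_prod_right (ν := μ)).measurable
  · exact (hwt.stronglyMeasurable.integral_prod_right (ν := μ)).measurable

theorem measurable_cov_lo (hr : ∀ i, MeasurableSet {ω | r ω i < ρ ω})
    (hc : ∀ i, Measurable fun ω => c ω i) (v w : V) :
    Measurable fun ω => cov μ site (lo (r ω) B (ρ ω)) (c ω) v w := by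
  have hwt := measurable_wt_lo (site := site) (B := B) hr hc
  have hcor : Measurable fun ω => cor μ site (lo (r ω) B (ρ ω)) (c ω) v w := by
    unfold cor evid
    refine Measurable.div ?_ ?_
    · have h1 : Measurable (fun p : Ω × (V → Bool) =>
          spin (p.2 v) * spin (p.2 w) * wt site (lo (r p.1) B (ρ p.1)) (c p.1) p.2) :=
        (((measurable_spin_apply v).comp measurable_snd).mul
          ((measurable_spin_apply w).comp measurable_snd)).mul hwt
      exact (h1.stronglyMeasurable.integral_prod_right (ν := μ)).measurable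
    · exact (hwt.stronglyMeasurable.integral_prod_right (ν := μ)).measurable
  unfold cov
  exact hcor.sub ((measurable_mag_lo hr hc v).mul (measurable_mag_lo hr hc w))

variable {g : Ω → ι → ℝ} {u : Ω → ι → ℝ}

theorem measurable_vmag_lo (hg : ∀ i, Measurable fun ω => g ω i)
    (hr : ∀ i j, MeasurableSet {ω | r ω i < r ω j}) (hρ : ∀ i, MeasurableSet {ω | r ω i < ρ ω})
    (hu : ∀ i, Measurable fun ω => u ω i) (v : V) :
    Measurable fun ω => vmag μ (g ω) site (r ω) (lo (r ω) B (ρ ω)) (u ω) v := by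
  simp only [vmag_lo]
  exact measurable_mag_lo hρ (fun i => measurable_vobs_param hg hr hu i) v

theorem measurable_vcov_lo (hg : ∀ i, Measurable fun ω => g ω i)
    (hr : ∀ i j, MeasurableSet {ω | r ω i < r ω j}) (hρ : ∀ i, MeasurableSet {ω | r ω i < ρ ω})
    (hu : ∀ i, Measurable fun ω => u ω i) (v w : V) :
    Measurable fun ω => vcov μ (g ω) site (r ω) (lo (r ω) B (ρ ω)) (u ω) v w := by
  simp only [vcov_lo]
  exact measurable_cov_lo hρ (fun i => measurable_vobs_param hg hr hu i) v w

end meas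

end Lo

section Time

variable {V : Type u}

/-- The order of the events: first by the round, then by the order label of the event. -/
noncomputable def rk2 (U : V × ℕ → ℝ) (e : V × ℕ) : ℕ ×ₗ ℝ := toLex (e.2, U e)

theorem rk2_lt {U : V × ℕ → ℝ} {e : V × ℕ} {k : ℕ} {y : ℝ} :
    rk2 U e < toLex (k, y) ↔ e.2 < k ∨ (e.2 = k ∧ U e < y) := by
  simp [rk2, Prod.Lex.toLex_lt_toLex]

theorem rk2_lt_rk2 {U : V × ℕ → ℝ} {e e' : V × ℕ} :
    rk2 U e < rk2 U e' ↔ e.2 < e'.2 ∨ (e.2 = e'.2 ∧ U e < U e') := by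
  simp [rk2, Prod.Lex.toLex_lt_toLex]

/-- The strength of the observation of the event `e`. -/
noncomputable def strU (U : V × ℕ → ℝ) (e : V × ℕ) : ℝ :=
  if U e < 0 then max 0 ((1 + U e) / 2) else 0

theorem strU_nonneg (U : V × ℕ → ℝ) (e : V × ℕ) : 0 ≤ strU U e := by
  unfold strU
  split_ifs
  · exact le_max_left _ _
  · exact le_rfl

theorem strU_le (U : V × ℕ → ℝ) (e : V × ℕ) : strU U e ≤ 1 / 2 := by
  unfold strU
  split_ifs with h
  · exact max_le (by norm_num) (by linarith)
  · norm_num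

open Classical in
/-- indicator of `D` -/
noncomputable def ind1 (D : Set V) (w : V) : ℝ := if w ∈ D then 1 else 0

theorem ind1_eq (D : Set V) (w : V) : ind1 D w = 0 ∨ ind1 D w = 1 := by
  unfold ind1
  split_ifs
  · exact Or.inr rfl
  · exact Or.inl rfl

/-- The strengths of the sampler on the set `D` of vertices. -/
noncomputable def strD (D : Set V) (U : V × ℕ → ℝ) (e : V × ℕ) : ℝ := ind1 D e.1 * strU U e

theorem strD_nonneg (D : Set V) (U : V × ℕ → ℝ) (e : V × ℕ) : 0 ≤ strD D U e :=
  (incr_mem (strU_nonneg U e) (strU_le U e) (ind1_eq D e.1)).1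

theorem strD_le (D : Set V) (U : V × ℕ → ℝ) (e : V × ℕ) : strD D U e ≤ 1 / 2 :=
  (incr_mem (strU_nonneg U e) (strU_le U e) (ind1_eq D e.1)).2

theorem measurable_strU (e : V × ℕ) : Measurable fun U : V × ℕ → ℝ => strU U e := by
  unfold strU
  refine Measurable.ite (measurableSet_lt (measurable_pi_apply e) measurable_const) ?_
    measurable_const
  exact measurable_const.max ((measurable_const.add (measurable_pi_apply e)).div_const 2)

theorem measurable_strD (D : Set V) (e : V × ℕ) : Measurable fun U : V × ℕ → ℝ => strD D U e := by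
  unfold strD
  exact (measurable_strU e).const_mul _

theorem measurableSet_rk2 (i j : V × ℕ) :
    MeasurableSet {U : V × ℕ → ℝ | rk2 U i < rk2 U j} := by
  simp only [rk2_lt_rk2]
  exact (MeasurableSet.const _).union ((MeasurableSet.const _).inter
    (measurableSet_lt (measurable_pi_apply i) (measurable_pi_apply j)))

theorem measurableSet_rk2_const (i : V × ℕ) (k : ℕ) (y : ℝ) :
    MeasurableSet {U : V × ℕ → ℝ | rk2 U i < toLex (k, y)} := by
  simp only [rk2_lt]
  exact (MeasurableSet.const _).union ((MeasurableSet.const _).inter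
    (measurableSet_lt (measurable_pi_apply i) measurable_const))

/-- Difference of the two systems at time `ρ`, for the order labels `U`. -/
noncomputable def PD (μ μ' : Measure (V → Bool)) (D D' : Set V) (B : Finset (V × ℕ))
    (U : V × ℕ → ℝ) (ρ : ℕ ×ₗ ℝ) (v : V) : ℝ :=
  pd μ μ' (strD D U) (strD D' U) Prod.fst (rk2 U) (lo (rk2 U) B ρ) v

/-- The bracket at time `ρ`, for the order labels `U`. -/
noncomputable def PQ (μ μ' : Measure (V → Bool)) (D D' : Set V) (B : Finset (V × ℕ))
    (U : V × ℕ → ℝ) (ρ : ℕ ×ₗ ℝ) (v w : V) : ℝ :=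
  pq μ μ' (strD D U) (strD D' U) Prod.fst (rk2 U) (lo (rk2 U) B ρ) (ind1 D w) (ind1 D' w) v w

variable {μ μ' : Measure (V → Bool)} {D D' : Set V} {B : Finset (V × ℕ)}

open Classical in
/-- One round, with the order labels fixed. -/
theorem round_fixed [Countable V] [IsProbabilityMeasure μ] [IsProbabilityMeasure μ']
    {D'' : Finset V} {k : ℕ} (hB : ∀ e : V × ℕ, e.2 = k → (e ∈ B ↔ e.1 ∈ D''))
    {U : V × ℕ → ℝ} (hU : Function.Injective U) (v : V) {y1 : ℝ} (n : ℕ) :
    ∀ y2 : ℝ, y1 ≤ y2 → (D''.filter (fun w => y1 ≤ U (w, k) ∧ U (w, k) < y2)).card = n →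
    PD μ μ' D D' B U (toLex (k, y1)) v ≤ PD μ μ' D D' B U (toLex (k, y2)) v ∧
    PD μ μ' D D' B U (toLex (k, y2)) v ≤ PD μ μ' D D' B U (toLex (k, y1)) v +
      ∑ w ∈ D'' with (y1 ≤ U (w, k) ∧ U (w, k) < y2),
        strU U (w, k) ^ 2 * PQ μ μ' D D' B U (rk2 U (w, k)) v w := by
  induction n with
  | zero =>
    intro y2 h12 hcard
    rw [Finset.card_eq_zero] at hcard
    have hlo : lo (rk2 U) B (toLex (k, y2)) = lo (rk2 U) B (toLex (k, y1)) := by
      ext e
      rw [mem_lo, mem_lo, rk2_lt, rk2_lt]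
      constructor
      · rintro ⟨h1, h2 | ⟨h2, h3⟩⟩
        · exact ⟨h1, Or.inl h2⟩
        · refine ⟨h1, Or.inr ⟨h2, ?_⟩⟩
          by_contra hcon
          have : e.1 ∈ D''.filter (fun w => y1 ≤ U (w, k) ∧ U (w, k) < y2) := by
            rw [Finset.mem_filter]
            have he : (e.1, k) = e := by rw [← h2]
            rw [he]
            exact ⟨(hB e h2).1 h1, not_lt.1 hcon, h3⟩
          rw [hcard] at this
          simp at this
      · rintro ⟨h1, h2 | ⟨h2, h3⟩⟩
        · exact ⟨h1, Or.inl h2⟩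
        · exact ⟨h1, Or.inr ⟨h2, h3.trans_le h12⟩⟩
    unfold PD
    rw [hlo, hcard]
    simp
  | succ n ih =>
    intro y2 h12 hcard
    set W := D''.filter (fun w => y1 ≤ U (w, k) ∧ U (w, k) < y2) with hW
    have hne : W.Nonempty := by rw [← Finset.card_pos, hcard]; omega
    obtain ⟨a, ha, hmax⟩ := Finset.exists_max_image W (fun w => U (w, k)) hne
    have ha' := Finset.mem_filter.1 ha
    set y' := U (a, k) with hy'
    have hWe : D''.filter (fun w => y1 ≤ U (w, k) ∧ U (w, k) < y') = W.erase a := by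
      ext w
      rw [Finset.mem_filter, Finset.mem_erase, hW, Finset.mem_filter]
      constructor
      · rintro ⟨h1, h2, h3⟩
        refine ⟨?_, h1, h2, h3.trans ha'.2.2⟩
        rintro rfl
        exact lt_irrefl _ h3
      · rintro ⟨h0, h1, h2, h3⟩
        refine ⟨h1, h2, lt_of_le_of_ne (hmax w ?_) ?_⟩
        · rw [hW, Finset.mem_filter]; exact ⟨h1, h2, h3⟩
        · intro h
          have := hU h
          exact h0 (Prod.mk.inj this).1
    have hcard' : (D''.filter (fun w => y1 ≤ U (w, k) ∧ U (w, k) < y')).card = n := by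
      rw [hWe, Finset.card_erase_of_mem ha, hcard]
      rfl
    obtain ⟨ih1, ih2⟩ := ih y' ha'.2.1 hcard'
    have hlo : ∀ e : V × ℕ, e ∈ lo (rk2 U) B (toLex (k, y2)) ↔
        e = (a, k) ∨ e ∈ lo (rk2 U) B (toLex (k, y')) := by
      intro e
      rw [mem_lo, mem_lo, rk2_lt, rk2_lt]
      constructor
      · rintro ⟨h1, h2 | ⟨h2, h3⟩⟩
        · exact Or.inr ⟨h1, Or.inl h2⟩
        · have he : (e.1, k) = e := by rw [← h2]
          by_cases hlt : U e < y'
          · exact Or.inr ⟨h1, Or.inr ⟨h2, hlt⟩⟩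
          · left
            rw [not_lt] at hlt
            have hmem : e.1 ∈ W := by
              rw [hW, Finset.mem_filter, he]
              exact ⟨(hB e h2).1 h1, ha'.2.1.trans hlt, h3⟩
            have h4 := hmax e.1 hmem
            simp only [he] at h4
            exact hU (le_antisymm h4 hlt)
      · rintro (h | ⟨h1, h2 | ⟨h2, h3⟩⟩)
        · subst h
          exact ⟨(hB _ rfl).2 ha'.1, Or.inr ⟨rfl, ha'.2.2⟩⟩
        · exact ⟨h1, Or.inl h2⟩
        · exact ⟨h1, Or.inr ⟨h2, h3.trans ha'.2.2⟩⟩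
    have hlt : ∀ i ∈ lo (rk2 U) B (toLex (k, y')), rk2 U i < rk2 U (a, k) :=
      fun i hi => (mem_lo.1 hi).2
    have hstep := pd_insert' (μ := μ) (μ' := μ') (site := (Prod.fst : V × ℕ → V)) (r := rk2 U)
      (S := lo (rk2 U) B (toLex (k, y'))) (S' := lo (rk2 U) B (toLex (k, y2)))
      (strD_nonneg D U) (strD_le D U) (strD_nonneg D' U)
      (strD_le D' U) hlo hlt (strU_nonneg U (a, k)) (strU_le U (a, k)) (ind1_eq D a)
      (ind1_eq D' a) rfl rfl v (w := a) rfl
    have hsum : ∑ w ∈ W, strU U (w, k) ^ 2 * PQ μ μ' D D' B U (rk2 U (w, k)) v w =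
        strU U (a, k) ^ 2 * PQ μ μ' D D' B U (rk2 U (a, k)) v a +
        ∑ w ∈ D'' with (y1 ≤ U (w, k) ∧ U (w, k) < y'),
          strU U (w, k) ^ 2 * PQ μ μ' D D' B U (rk2 U (w, k)) v w := by
      rw [hWe]
      exact (Finset.add_sum_erase W
        (fun w => strU U (w, k) ^ 2 * PQ μ μ' D D' B U (rk2 U (w, k)) v w) ha).symm
    rw [hsum]
    have hPD : PD μ μ' D D' B U (toLex (k, y2)) v =
        pd μ μ' (strD D U) (strD D' U) Prod.fst (rk2 U) (lo (rk2 U) B (toLex (k, y2))) v := rfl
    have hPQ : PQ μ μ' D D' B U (rk2 U (a, k)) v a =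
        pq μ μ' (strD D U) (strD D' U) Prod.fst (rk2 U) (lo (rk2 U) B (toLex (k, y')))
          (ind1 D a) (ind1 D' a) v a := rfl
    rw [hPD, hPQ]
    have h1 := hstep.1
    have h2 := hstep.2
    have h3 : PD μ μ' D D' B U (toLex (k, y')) v =
        pd μ μ' (strD D U) (strD D' U) Prod.fst (rk2 U) (lo (rk2 U) B (toLex (k, y'))) v := rfl
    constructor
    · linarith
    · linarith

end Time

end Vale.Agent.P161
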