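import Mathlib
import Vale.Agent.P161E.Evol

/-!
# Events of strength zero do not matter
-/

open MeasureTheory

namespace Vale.Agent.P161

universe u

section

variable {V : Type u} {ι : Type*} {R : Type*} [LinearOrder R] {μ : Measure (V → Bool)}
  {g g' : ι → ℝ} {site : ι → V} {r : ι → R} {S S' : Finset ι} {c c' : ι → ℝ}

theorem wt_drop (h : ∀ i, c i ≠ 0 → (i ∈ S ↔ i ∈ S')) (σ : V → Bool) :
    wt site S c σ = wt site S' c σ := by
  classical
  unfold wt
  have h1 : ∀ T : Finset ι, ∏ i ∈ T, (1 + c i * spin (σ (site i))) =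
      ∏ i ∈ T.filter (fun i => c i ≠ 0), (1 + c i * spin (σ (site i))) := by
    intro T
    symm
    apply Finset.prod_filter_of_ne
    intro i _ hi h0
    exact hi (by rw [h0]; ring)
  rw [h1 S, h1 S']
  congr 1
  ext i
  rw [Finset.mem_filter, Finset.mem_filter]
  constructor
  · rintro ⟨h2, h3⟩; exact ⟨(h i h3).1 h2, h3⟩
  · rintro ⟨h2, h3⟩; exact ⟨(h i h3).2 h2, h3⟩

theorem evid_drop (h : ∀ i, c i ≠ 0 → (i ∈ S ↔ i ∈ S')) :
    evid μ site S c = evid μ site S' c := by
  unfold evid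
  simp only [wt_drop h]

theorem mag_drop (h : ∀ i, c i ≠ 0 → (i ∈ S ↔ i ∈ S')) (v : V) :
    mag μ site S c v = mag μ site S' c v := by
  unfold mag
  rw [evid_drop h]
  simp only [wt_drop h]

theorem cor_drop (h : ∀ i, c i ≠ 0 → (i ∈ S ↔ i ∈ S')) (v w : V) :
    cor μ site S c v w = cor μ site S' c v w := by
  unfold cor
  rw [evid_drop h]
  simp only [wt_drop h]

theorem cov_drop (h : ∀ i, c i ≠ 0 → (i ∈ S ↔ i ∈ S')) (v w : V) :
    cov μ site S c v w = cov μ site S' c v w := by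
  unfold cov
  rw [cor_drop h, mag_drop h, mag_drop h]

theorem vsamp_drop (μ : Measure (V → Bool)) (site : ι → V)
    (h : ∀ i, g i ≠ 0 → (i ∈ S ↔ i ∈ S')) (u : ι → ℝ) (e : ι) :
    vsamp μ g site r S u e = vsamp μ g site r S' u e := by
  suffices hs : ∀ m (e : ι), (pre r S e).card ≤ m →
      vsamp μ g site r S u e = vsamp μ g site r S' u e from hs _ e le_rfl
  intro m
  induction m with
  | zero =>
    intro e he
    rw [vsamp_eq, vsamp_eq]
    congr 2
    have h0 : pre r S e = ∅ := Finset.card_eq_zero.1 (by omega)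
    have h1 : mag μ site (pre r S e) (fun i => g i * vsamp μ g site r S u i) (site e) =
        mag μ site (pre r S e) (fun i => g i * vsamp μ g site r S' u i) (site e) :=
      mag_congr (fun i hi => by rw [h0] at hi; simp at hi) _
    rw [h1]
    refine mag_drop (fun i hi => ?_) _
    have hg : g i ≠ 0 := fun h0 => hi (by rw [h0, zero_mul])
    rw [mem_pre, mem_pre, h i hg]
  | succ m ih =>
    intro e he
    rw [vsamp_eq, vsamp_eq]
    congr 2
    have h1 : mag μ site (pre r S e) (fun i => g i * vsamp μ g site r S u i) (site e) =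
        mag μ site (pre r S e) (fun i => g i * vsamp μ g site r S' u i) (site e) := by
      refine mag_congr (fun i hi => ?_) _
      have hc := card_pre_lt hi
      rw [ih i (by omega)]
    rw [h1]
    refine mag_drop (fun i hi => ?_) _
    have hg : g i ≠ 0 := fun h0 => hi (by rw [h0, zero_mul])
    rw [mem_pre, mem_pre, h i hg]

theorem vobs_drop (μ : Measure (V → Bool)) (site : ι → V)
    (h : ∀ i, g i ≠ 0 → (i ∈ S ↔ i ∈ S')) (u : ι → ℝ) (e : ι) :
    vobs μ g site r S u e = vobs μ g site r S' u e := by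
  unfold vobs
  rw [vsamp_drop μ site h u e]

theorem vmag_drop (h : ∀ i, g i ≠ 0 → (i ∈ S ↔ i ∈ S')) (u : ι → ℝ) (v : V) :
    vmag μ g site r S u v = vmag μ g site r S' u v := by
  unfold vmag
  have h1 : mag μ site S (vobs μ g site r S u) v = mag μ site S (vobs μ g site r S' u) v :=
    mag_congr (fun i _ => vobs_drop μ site h u i) v
  rw [h1]
  refine mag_drop (fun i hi => h i ?_) v
  intro h0
  exact hi (by unfold vobs; rw [h0, zero_mul])

/-- Changing the strengths on events which are not in `S`. -/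
theorem vmag_congr_str (hg : ∀ i ∈ S, g i = g' i) (u : ι → ℝ) (v : V) :
    vmag μ g site r S u v = vmag μ g' site r S u v := by
  unfold vmag
  refine mag_congr (fun i hi => ?_) v
  unfold vobs
  rw [hg i hi]
  congr 1
  exact vsamp_congr μ site rfl (fun _ _ => rfl) (fun _ _ => rfl) rfl
    (fun j hj => hg j (mem_pre.1 hj).1) (hg i hi)

end

section fin

variable {V : Type u} {μ : Measure (V → Bool)}

open Classical in
/-- the events of the first `k + 1` rounds at the vertices of `D` -/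
noncomputable def evK (D : Finset V) (k : ℕ) : Finset (V × ℕ) := D ×ˢ Finset.range (k + 1)

theorem mem_evK {D : Finset V} {k : ℕ} {e : V × ℕ} : e ∈ evK D k ↔ e.1 ∈ D ∧ e.2 ≤ k := by
  unfold evK
  rw [Finset.mem_product, Finset.mem_range, Nat.lt_succ_iff]

/-- The events at the vertices of `D` before the time `(k, y)`. -/
noncomputable def evT (D : Finset V) (U : V × ℕ → ℝ) (k : ℕ) (y : ℝ) : Finset (V × ℕ) :=
  lo (rk2 U) (evK D k) (toLex (k, y))

theorem mem_evT {D : Finset V} {U : V × ℕ → ℝ} {k : ℕ} {y : ℝ} {e : V × ℕ} :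
    e ∈ evT D U k y ↔ e.1 ∈ D ∧ (e.2 < k ∨ (e.2 = k ∧ U e < y)) := by
  unfold evT
  rw [mem_lo, mem_evK, rk2_lt]
  constructor
  · rintro ⟨⟨h1, _⟩, h2⟩; exact ⟨h1, h2⟩
  · rintro ⟨h1, h2⟩
    refine ⟨⟨h1, ?_⟩, h2⟩
    rcases h2 with h2 | h2
    · exact h2.le
    · exact h2.1.le

/-- The posterior mean at `v` of the sampler on `D` at the time `(k, y)`. -/
noncomputable def mf (μ : Measure (V → Bool)) (D : Finset V) (k : ℕ) (y : ℝ)
    (U u : V × ℕ → ℝ) (v : V) : ℝ :=
  vmag μ (strU U) Prod.fst (rk2 U) (evT D U k y) u v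

theorem lo_evK {D : Finset V} {U : V × ℕ → ℝ} {k l : ℕ} (hkl : k ≤ l) {y : ℝ} :
    lo (rk2 U) (evK D l) (toLex (k, y)) = evT D U k y := by
  ext e
  rw [mem_evT, mem_lo, mem_evK, rk2_lt]
  constructor
  · rintro ⟨⟨h1, _⟩, h2⟩; exact ⟨h1, h2⟩
  · rintro ⟨h1, h2⟩
    refine ⟨⟨h1, ?_⟩, h2⟩
    rcases h2 with h2 | h2
    · omega
    · omega

/-- The sampler with strengths restricted to `D` on a larger set of events. -/
theorem vmag_strD {D D' : Finset V} (hD : D ⊆ D') {k l : ℕ} (hkl : k ≤ l) (y : ℝ)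
    (U u : V × ℕ → ℝ) (v : V) :
    vmag μ (strD (D : Set V) U) Prod.fst (rk2 U) (lo (rk2 U) (evK D' l) (toLex (k, y))) u v =
      mf μ D k y U u v := by
  rw [lo_evK hkl]
  unfold mf
  have h1 : ∀ e : V × ℕ, e.1 ∈ D → strD (D : Set V) U e = strU U e := by
    intro e he
    unfold strD ind1
    rw [if_pos (by exact_mod_cast he), one_mul]
  have h2 : ∀ e : V × ℕ, e.1 ∉ D → strD (D : Set V) U e = 0 := by
    intro e he
    unfold strD ind1
    rw [if_neg (by exact_mod_cast he), zero_mul]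
  rw [vmag_drop (S' := evT D U k y) (fun e he => ?_) u v]
  · exact vmag_congr_str (fun e he => h1 e (mem_evT.1 he).1) u v
  · have he' : e.1 ∈ D := by
      by_contra hcon
      exact he (h2 e hcon)
    rw [mem_evT, mem_evT]
    constructor
    · rintro ⟨_, h3⟩; exact ⟨he', h3⟩
    · rintro ⟨_, h3⟩; exact ⟨hD he', h3⟩

theorem strU_of_nonneg {U : V × ℕ → ℝ} {e : V × ℕ} (h : 0 ≤ U e) : strU U e = 0 := by
  unfold strU
  rw [if_neg (not_lt.2 h)]

/-- Between two rounds nothing changes. -/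
theorem mf_round (D : Finset V) (k : ℕ) {U : V × ℕ → ℝ} (hU : ∀ e, -1 ≤ U e) (u : V × ℕ → ℝ)
    (v : V) : mf μ D (k + 1) (-1) U u v = mf μ D k 0 U u v := by
  unfold mf
  refine vmag_drop (fun e he => ?_) u v
  have hneg : U e < 0 := by
    by_contra hcon
    exact he (strU_of_nonneg (not_lt.1 hcon))
  rw [mem_evT, mem_evT]
  constructor
  · rintro ⟨h1, h2 | ⟨_, h3⟩⟩
    · refine ⟨h1, ?_⟩
      rcases Nat.lt_succ_iff_lt_or_eq.1 h2 with h4 | h4
      · exact Or.inl h4
      · exact Or.inr ⟨h4, hneg⟩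
    · exact absurd h3 (not_lt.2 (hU e))
  · rintro ⟨h1, h2 | ⟨h2, _⟩⟩
    · exact ⟨h1, Or.inl (by omega)⟩
    · exact ⟨h1, Or.inl (by omega)⟩

theorem evT_zero (D : Finset V) {U : V × ℕ → ℝ} (hU : ∀ e, -1 ≤ U e) : evT D U 0 (-1) = ∅ := by
  ext e
  rw [mem_evT]
  constructor
  · rintro ⟨_, h | ⟨_, h⟩⟩
    · omega
    · exact absurd h (not_lt.2 (hU e))
  · intro h; simp at h

end fin

end Vale.Agent.P161
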