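import Mathlib
import Vale.Agent.P161.Insert

/-!
# Resampling one of the uniform labels
-/

open MeasureTheory

namespace Vale.Agent.P161

theorem unif_Ico {a b : ℝ} (ha : -1 ≤ a) (hab : a ≤ b) (hb : b ≤ 1) :
    ∫ y, (Set.Ico a b).indicator (fun _ => (1 : ℝ)) y ∂unif = (b - a) / 2 := by
  rw [integral_unif, setIntegral_indicator measurableSet_Ico]
  have h1 : Set.Icc (-1 : ℝ) 1 ∩ Set.Ico a b = Set.Ico a b := by
    ext x
    simp only [Set.mem_inter_iff, Set.mem_Icc, Set.mem_Ico]
    constructor
    · rintro ⟨_, h⟩; exact h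
    · rintro ⟨h1, h2⟩; exact ⟨⟨by linarith, by linarith⟩, h1, h2⟩
  rw [h1]
  simp only [integral_const, MeasurableSet.univ, measureReal_restrict_apply, Set.univ_inter,
    smul_eq_mul, mul_one]
  rw [measureReal_def, Real.volume_Ico, ENNReal.toReal_ofReal (by linarith)]
  ring

/-- integral against `unif` of a function supported in a window -/
theorem integral_unif_Ico {a b : ℝ} (ha : -1 ≤ a) (hb : b ≤ 1) (h : ℝ → ℝ) :
    ∫ y, (Set.Ico a b).indicator (fun y => 2 * h y) y ∂unif = ∫ y in Set.Ico a b, h y := by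
  rw [integral_unif, setIntegral_indicator measurableSet_Ico]
  have h1 : Set.Icc (-1 : ℝ) 1 ∩ Set.Ico a b = Set.Ico a b := by
    ext x
    simp only [Set.mem_inter_iff, Set.mem_Icc, Set.mem_Ico]
    constructor
    · rintro ⟨_, h⟩; exact h
    · rintro ⟨h1, h2⟩; exact ⟨⟨by linarith, by linarith⟩, h1, h2⟩
  rw [h1, integral_const_mul]
  ring

theorem unif_Ici {y : ℝ} (hy : -1 ≤ y) (hy1 : y ≤ 1) :
    ∫ z, (Set.Ici y).indicator (fun _ => (1 : ℝ)) z ∂unif = (1 - y) / 2 := by
  rw [integral_unif, setIntegral_indicator measurableSet_Ici]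
  have h1 : Set.Icc (-1 : ℝ) 1 ∩ Set.Ici y = Set.Icc y 1 := by
    ext x
    simp only [Set.mem_inter_iff, Set.mem_Icc, Set.mem_Ici]
    constructor
    · rintro ⟨⟨_, h1⟩, h2⟩; exact ⟨h2, h1⟩
    · rintro ⟨h1, h2⟩; exact ⟨⟨by linarith, by linarith⟩, h1⟩
  rw [h1]
  simp only [integral_const, MeasurableSet.univ, measureReal_restrict_apply, Set.univ_inter,
    smul_eq_mul, mul_one]
  rw [measureReal_def, Real.volume_Icc, ENNReal.toReal_ofReal (by linarith)]
  ring

open Classical in
theorem measurable_update_pair {ι : Type*} (e : ι) :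
    Measurable fun p : (ι → ℝ) × ℝ => Function.update p.1 e p.2 := by
  refine measurable_pi_lambda _ fun i => ?_
  by_cases hi : i = e
  · subst hi
    simp only [Function.update_self]
    exact measurable_snd
  · simp only [Function.update_of_ne hi]
    exact (measurable_pi_apply i).comp measurable_fst

open Classical in
/-- If `Φ` does not depend on the label `e` when this label is at least `y`, then fixing this label
to `y` costs at most a factor two. -/
theorem half_resample {ι : Type*} (e : ι) {Φ : (ι → ℝ) → ℝ} (hm : Measurable Φ) {C : ℝ}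
    (hC : ∀ U, |Φ U| ≤ C) (h0 : ∀ U, 0 ≤ Φ U) {y : ℝ} (hy : -1 ≤ y) (hy0 : y ≤ 0)
    (hc : ∀ U z, y ≤ z → Φ (Function.update U e z) = Φ (Function.update U e y)) :
    ∫ U, Φ (Function.update U e y) ∂(Pu ι) ≤ 2 * ∫ U, Φ U ∂(Pu ι) := by
  have hmu : Measurable fun p : (ι → ℝ) × ℝ => Φ (Function.update p.1 e p.2) :=
    hm.comp (measurable_update_pair e)
  have hmy : Measurable fun U : ι → ℝ => Φ (Function.update U e y) :=
    hmu.comp (measurable_id.prodMk measurable_const)
  rw [integral_resample e hm ⟨C, hC⟩, ← integral_const_mul]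
  refine integral_mono (integrable_of_meas_bdd hmy fun U => hC _)
    ((integrable_inner hm hC e).const_mul 2) fun U => ?_
  have h1 : ∫ z, (Set.Ici y).indicator (fun _ => (1 : ℝ)) z * Φ (Function.update U e y) ∂unif ≤
      ∫ z, Φ (Function.update U e z) ∂unif := by
    refine integral_mono ?_ ?_ fun z => ?_
    · refine Integrable.mul_const (integrable_of_meas_bdd
        (measurable_const.indicator measurableSet_Ici) (C := 1) fun z => ?_) _
      unfold Set.indicator
      split_ifs <;> simp
    · exact integrable_of_meas_bdd (hmu.comp (measurable_const.prodMk measurable_id)) (C := C)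
        fun z => hC _
    · show (Set.Ici y).indicator (fun _ => (1 : ℝ)) z * Φ (Function.update U e y) ≤
        Φ (Function.update U e z)
      by_cases hz : z ∈ Set.Ici y
      · rw [Set.indicator_of_mem hz, one_mul, hc U z hz]
      · rw [Set.indicator_of_notMem hz, zero_mul]
        exact h0 _
  rw [integral_mul_const, unif_Ici hy (by linarith)] at h1
  have h2 := h0 (Function.update U e y)
  show Φ (Function.update U e y) ≤ 2 * ∫ z, Φ (Function.update U e z) ∂unif
  nlinarith

open Classical in
/-- The contribution of one event with random order label. -/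
theorem window_resample {ι : Type*} (e : ι) {Φ : (ι → ℝ) → ℝ → ℝ}
    (hm : Measurable fun p : (ι → ℝ) × ℝ => Φ p.1 p.2) {C : ℝ}
    (hC : ∀ U y, |Φ U y| ≤ C) (h0 : ∀ U y, 0 ≤ Φ U y) {a b : ℝ} (ha : -1 ≤ a) (hb : b ≤ 0)
    (hc : ∀ U y z, y ≤ z → Φ (Function.update U e z) y = Φ (Function.update U e y) y)
    {c : ℝ → ℝ} (hcm : Measurable c) {K : ℝ} (hcK : ∀ z, |c z| ≤ K) (hc0 : ∀ z, 0 ≤ c z)
    (hcz : ∀ z, ¬ (a ≤ z ∧ z < b) → c z = 0) :
    ∫ U, c (U e) * Φ U (U e) ∂(Pu ι) ≤
      ∫ z, c z * (2 * ∫ U, Φ U z ∂(Pu ι)) ∂unif := by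
  have hK0 : 0 ≤ K := (abs_nonneg _).trans (hcK 0)
  have hC0 : ∀ U y, |Φ U y| ≤ C := hC
  have hmF : Measurable fun U : ι → ℝ => c (U e) * Φ U (U e) :=
    (hcm.comp (measurable_pi_apply e)).mul (hm.comp (measurable_id.prodMk (measurable_pi_apply e)))
  have hbF : ∀ U : ι → ℝ, |c (U e) * Φ U (U e)| ≤ K * C := fun U => by
    rw [abs_mul]
    exact mul_le_mul (hcK _) (hC _ _) (abs_nonneg _) hK0
  rw [integral_resample e hmF ⟨K * C, hbF⟩]
  have hupd : Measurable fun p : (ι → ℝ) × ℝ => Φ (Function.update p.1 e p.2) p.2 :=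
    hm.comp ((measurable_update_pair e).prodMk measurable_snd)
  have hG : Measurable fun p : (ι → ℝ) × ℝ => c p.2 * Φ (Function.update p.1 e p.2) p.2 :=
    (hcm.comp measurable_snd).mul hupd
  have hGi : Integrable (fun p : (ι → ℝ) × ℝ => c p.2 * Φ (Function.update p.1 e p.2) p.2)
      ((Pu ι).prod unif) := by
    refine integrable_of_meas_bdd hG (C := K * C) fun p => ?_
    rw [abs_mul]
    exact mul_le_mul (hcK _) (hC _ _) (abs_nonneg _) hK0
  have e1 : ∫ U, ∫ z, c (Function.update U e z e) * Φ (Function.update U e z)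
      (Function.update U e z e) ∂unif ∂(Pu ι) =
      ∫ z, ∫ U, c z * Φ (Function.update U e z) z ∂(Pu ι) ∂unif := by
    have hsw := integral_integral_swap (f := fun (U : ι → ℝ) (z : ℝ) =>
      c z * Φ (Function.update U e z) z) hGi
    rw [← hsw]
    refine integral_congr_ae (Filter.Eventually.of_forall fun U => ?_)
    refine integral_congr_ae (Filter.Eventually.of_forall fun z => ?_)
    simp only [Function.update_self]
  rw [e1]
  have hmz : ∀ z : ℝ, Measurable fun U : ι → ℝ => Φ U z := fun z =>
    hm.comp (measurable_id.prodMk measurable_const)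
  have hmzu : ∀ z : ℝ, Measurable fun U : ι → ℝ => Φ (Function.update U e z) z := fun z =>
    hupd.comp (measurable_id.prodMk measurable_const)
  have hI : Measurable fun z : ℝ => ∫ U, Φ U z ∂(Pu ι) := by
    have h1 : Measurable (Function.uncurry fun (z : ℝ) (U : ι → ℝ) => Φ U z) :=
      hm.comp measurable_swap
    exact (h1.stronglyMeasurable.integral_prod_right (ν := Pu ι)).measurable
  have hIu : Measurable fun z : ℝ => ∫ U, c z * Φ (Function.update U e z) z ∂(Pu ι) := by
    have h1 : Measurable (Function.uncurry fun (z : ℝ) (U : ι → ℝ) =>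
        c z * Φ (Function.update U e z) z) := hG.comp measurable_swap
    exact (h1.stronglyMeasurable.integral_prod_right (ν := Pu ι)).measurable
  have habs : ∀ z, |∫ U, Φ U z ∂(Pu ι)| ≤ C := fun z => by
    calc |∫ U, Φ U z ∂(Pu ι)| ≤ ∫ U, |Φ U z| ∂(Pu ι) := abs_integral_le_integral_abs
      _ ≤ ∫ _, C ∂(Pu ι) := integral_mono
          ((integrable_of_meas_bdd (hmz z) fun U => hC U z).abs) (integrable_const _)
          fun U => hC U z
      _ = C := by simp
  refine integral_mono (integrable_of_meas_bdd hIu (C := K * C) fun z => ?_)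
    (integrable_of_meas_bdd (hcm.mul (hI.const_mul 2)) (C := K * (2 * C)) fun z => ?_) fun z => ?_
  · calc |∫ U, c z * Φ (Function.update U e z) z ∂(Pu ι)| ≤
          ∫ U, |c z * Φ (Function.update U e z) z| ∂(Pu ι) := abs_integral_le_integral_abs
      _ ≤ ∫ _, K * C ∂(Pu ι) := integral_mono
          ((integrable_of_meas_bdd ((hmzu z).const_mul (c z)) (C := K * C) fun U => by
            rw [abs_mul]
            exact mul_le_mul (hcK _) (hC _ _) (abs_nonneg _) hK0).abs) (integrable_const _)
          fun U => by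
            show |c z * Φ (Function.update U e z) z| ≤ K * C
            rw [abs_mul]
            exact mul_le_mul (hcK _) (hC _ _) (abs_nonneg _) hK0
      _ = K * C := by simp
  · rw [abs_mul, abs_mul, abs_two]
    exact mul_le_mul (hcK _) (by have := habs z; linarith) (by positivity) hK0
  · show ∫ U, c z * Φ (Function.update U e z) z ∂(Pu ι) ≤ c z * (2 * ∫ U, Φ U z ∂(Pu ι))
    rw [integral_const_mul]
    by_cases hz : a ≤ z ∧ z < b
    · refine mul_le_mul_of_nonneg_left ?_ (hc0 z)
      exact half_resample e (hmz z) (fun U => hC U z) (fun U => h0 U z) (ha.trans hz.1)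
        (hz.2.le.trans hb) fun U w hw => hc U z w hw
    · rw [hcz z hz]; simp

end Vale.Agent.P161
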