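import Mathlib
import Vale.Agent.P161E.Evol
import Vale.Agent.P161E.Resample

/-!
# Evolution of the difference of two samplers with random order: averaging over the order
-/

open MeasureTheory

namespace Vale.Agent.P161

universe u

section Congr

variable {V : Type u} {ι : Type*} {R : Type*} [LinearOrder R] {μ μ' : Measure (V → Bool)}
  {g g' h h' : ι → ℝ} {site : ι → V} {r r' : ι → R} {S : Finset ι}

theorem vobs_congr_on (μ : Measure (V → Bool)) (site : ι → V) (hg : ∀ i ∈ S, g i = g' i)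
    (hr : ∀ i ∈ S, ∀ j ∈ S, (r i < r j ↔ r' i < r' j)) (u : ι → ℝ) {i : ι} (hi : i ∈ S) :
    vobs μ g site r S u i = vobs μ g' site r' S u i := by
  have hp : ∀ j ∈ S, pre r S j = pre r' S j := by
    intro j hj
    ext l
    rw [mem_pre, mem_pre]
    constructor
    · rintro ⟨h1, h2⟩
      exact ⟨h1, (hr l h1 j hj).1 h2⟩
    · rintro ⟨h1, h2⟩
      exact ⟨h1, (hr l h1 j hj).2 h2⟩
  unfold vobs
  rw [hg i hi]
  congr 1
  exact vsamp_congr μ site (hp i hi) (fun j hj => hp j (mem_pre.1 hj).1) (fun _ _ => rfl) rfl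
    (fun j hj => hg j (mem_pre.1 hj).1) (hg i hi)

theorem vmag_congr_on (μ : Measure (V → Bool)) (site : ι → V) (hg : ∀ i ∈ S, g i = g' i)
    (hr : ∀ i ∈ S, ∀ j ∈ S, (r i < r j ↔ r' i < r' j)) (u : ι → ℝ) (v : V) :
    vmag μ g site r S u v = vmag μ g' site r' S u v := by
  unfold vmag
  exact mag_congr (fun i hi => vobs_congr_on μ site hg hr u hi) v

theorem vcov_congr_on (μ : Measure (V → Bool)) (site : ι → V) (hg : ∀ i ∈ S, g i = g' i)
    (hr : ∀ i ∈ S, ∀ j ∈ S, (r i < r j ↔ r' i < r' j)) (u : ι → ℝ) (v w : V) :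
    vcov μ g site r S u v w = vcov μ g' site r' S u v w := by
  have h : ∀ i ∈ S, vobs μ g site r S u i = vobs μ g' site r' S u i :=
    fun i hi => vobs_congr_on μ site hg hr u hi
  unfold vcov cov
  rw [mag_congr h v, mag_congr h w, cor_congr h]

theorem pq_congr_on (hg : ∀ i ∈ S, g i = g' i) (hh : ∀ i ∈ S, h i = h' i)
    (hr : ∀ i ∈ S, ∀ j ∈ S, (r i < r j ↔ r' i < r' j)) (a b : ℝ) (v w : V) :
    pq μ μ' g h site r S a b v w = pq μ μ' g' h' site r' S a b v w := by
  unfold pq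
  refine integral_congr_ae (Filter.Eventually.of_forall fun u => ?_)
  simp only
  rw [vcov_congr_on μ site hg hr u v w, vcov_congr_on μ' site hh hr u v w,
    vmag_congr_on μ site hg hr u w, vmag_congr_on μ' site hh hr u w]

theorem pd_congr_on (hg : ∀ i ∈ S, g i = g' i) (hh : ∀ i ∈ S, h i = h' i)
    (hr : ∀ i ∈ S, ∀ j ∈ S, (r i < r j ↔ r' i < r' j)) (v : V) :
    pd μ μ' g h site r S v = pd μ μ' g' h' site r' S v := by
  unfold pd
  refine integral_congr_ae (Filter.Eventually.of_forall fun u => ?_)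
  simp only
  rw [vmag_congr_on μ site hg hr u v, vmag_congr_on μ' site hh hr u v]

end Congr

section Average

variable {V : Type u} {μ μ' : Measure (V → Bool)} {D D' : Set V} {B : Finset (V × ℕ)}

theorem strU_congr {U U' : V × ℕ → ℝ} {e : V × ℕ} (h : U e = U' e) : strU U e = strU U' e := by
  unfold strU
  rw [h]

theorem strD_congr (D : Set V) {U U' : V × ℕ → ℝ} {e : V × ℕ} (h : U e = U' e) :
    strD D U e = strD D U' e := by
  unfold strD
  rw [strU_congr h]

theorem PQ_congr {U U' : V × ℕ → ℝ} {ρ : ℕ ×ₗ ℝ} (hlo : lo (rk2 U) B ρ = lo (rk2 U') B ρ)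
    (h : ∀ i ∈ lo (rk2 U) B ρ, U i = U' i) (v w : V) :
    PQ μ μ' D D' B U ρ v w = PQ μ μ' D D' B U' ρ v w := by
  unfold PQ
  rw [← hlo]
  refine pq_congr_on (fun i hi => strD_congr D (h i hi)) (fun i hi => strD_congr D' (h i hi))
    (fun i hi j hj => ?_) _ _ v w
  rw [rk2_lt_rk2, rk2_lt_rk2, h i hi, h j hj]

/-- The bracket at time `(k, y)` does not depend on the order label of an event of the round `k`
which is at least `y`. -/
theorem PQ_update [DecidableEq (V × ℕ)] {w' : V} {k : ℕ} {y z : ℝ} (hz : y ≤ z) (U : V × ℕ → ℝ) (v w : V) :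
    PQ μ μ' D D' B (Function.update U (w', k) z) (toLex (k, y)) v w =
      PQ μ μ' D D' B (Function.update U (w', k) y) (toLex (k, y)) v w := by
  have key : ∀ x : ℝ, y ≤ x → ∀ e : V × ℕ,
      rk2 (Function.update U (w', k) x) e < toLex (k, y) ↔ e ≠ (w', k) ∧
        rk2 U e < toLex (k, y) := by
    intro x hx e
    rw [rk2_lt, rk2_lt]
    by_cases he : e = (w', k)
    · subst he
      simp only [Function.update_self, lt_irrefl, true_and, false_or, ne_eq, not_true_eq_false,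
        false_and, iff_false, not_lt]
      exact hx
    · rw [Function.update_of_ne he]
      simp [he]
  refine PQ_congr ?_ ?_ v w
  · ext e
    rw [mem_lo, mem_lo, key z hz, key y le_rfl]
  · intro i hi
    rw [mem_lo, key z hz] at hi
    rw [Function.update_of_ne hi.2.1, Function.update_of_ne hi.2.1]

section meas

variable [Countable V] [IsProbabilityMeasure μ] [IsProbabilityMeasure μ']

theorem measurable_PD {Ω : Type*} [MeasurableSpace Ω] {U : Ω → V × ℕ → ℝ} {ρ : Ω → ℕ ×ₗ ℝ}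
    (hU : ∀ e, Measurable fun ω => U ω e)
    (hρ : ∀ i, MeasurableSet {ω | rk2 (U ω) i < ρ ω}) (v : V) :
    Measurable fun ω => PD μ μ' D D' B (U ω) (ρ ω) v := by
  have hUm : Measurable U := measurable_pi_lambda _ hU
  have hr : ∀ i j, MeasurableSet {p : Ω × (V × ℕ → ℝ) | rk2 (U p.1) i < rk2 (U p.1) j} :=
    fun i j => (measurableSet_rk2 i j).preimage (hUm.comp measurable_fst)
  have hρ' : ∀ i, MeasurableSet {p : Ω × (V × ℕ → ℝ) | rk2 (U p.1) i < ρ p.1} :=
    fun i => (hρ i).preimage measurable_fst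
  have hstr : ∀ (D : Set V) (i : V × ℕ),
      Measurable fun p : Ω × (V × ℕ → ℝ) => strD D (U p.1) i := fun D i =>
    (measurable_strD D i).comp (hUm.comp measurable_fst)
  have hu : ∀ i : V × ℕ, Measurable fun p : Ω × (V × ℕ → ℝ) => p.2 i :=
    fun i => (measurable_pi_apply i).comp measurable_snd
  unfold PD pd
  have h1 : Measurable fun p : Ω × (V × ℕ → ℝ) =>
      (vmag μ (strD D (U p.1)) Prod.fst (rk2 (U p.1)) (lo (rk2 (U p.1)) B (ρ p.1)) p.2 v -
        vmag μ' (strD D' (U p.1)) Prod.fst (rk2 (U p.1)) (lo (rk2 (U p.1)) B (ρ p.1)) p.2 v) ^ 2 :=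
    ((measurable_vmag_lo (hstr D) hr hρ' hu v).sub
      (measurable_vmag_lo (hstr D') hr hρ' hu v)).pow_const 2
  exact (h1.stronglyMeasurable.integral_prod_right (ν := Pu (V × ℕ))).measurable

theorem measurable_PQ {Ω : Type*} [MeasurableSpace Ω] {U : Ω → V × ℕ → ℝ} {ρ : Ω → ℕ ×ₗ ℝ}
    (hU : ∀ e, Measurable fun ω => U ω e)
    (hρ : ∀ i, MeasurableSet {ω | rk2 (U ω) i < ρ ω}) (v w : V) :
    Measurable fun ω => PQ μ μ' D D' B (U ω) (ρ ω) v w := by
  have hUm : Measurable U := measurable_pi_lambda _ hU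
  have hr : ∀ i j, MeasurableSet {p : Ω × (V × ℕ → ℝ) | rk2 (U p.1) i < rk2 (U p.1) j} :=
    fun i j => (measurableSet_rk2 i j).preimage (hUm.comp measurable_fst)
  have hρ' : ∀ i, MeasurableSet {p : Ω × (V × ℕ → ℝ) | rk2 (U p.1) i < ρ p.1} :=
    fun i => (hρ i).preimage measurable_fst
  have hstr : ∀ (D : Set V) (i : V × ℕ),
      Measurable fun p : Ω × (V × ℕ → ℝ) => strD D (U p.1) i := fun D i =>
    (measurable_strD D i).comp (hUm.comp measurable_fst)
  have hu : ∀ i : V × ℕ, Measurable fun p : Ω × (V × ℕ → ℝ) => p.2 i :=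
    fun i => (measurable_pi_apply i).comp measurable_snd
  unfold PQ pq
  have h1 : Measurable fun p : Ω × (V × ℕ → ℝ) =>
      qq (ind1 D w) (ind1 D' w)
        (vcov μ (strD D (U p.1)) Prod.fst (rk2 (U p.1)) (lo (rk2 (U p.1)) B (ρ p.1)) p.2 v w)
        (vcov μ' (strD D' (U p.1)) Prod.fst (rk2 (U p.1)) (lo (rk2 (U p.1)) B (ρ p.1)) p.2 v w)
        (vmag μ (strD D (U p.1)) Prod.fst (rk2 (U p.1)) (lo (rk2 (U p.1)) B (ρ p.1)) p.2 w)
        (vmag μ' (strD D' (U p.1)) Prod.fst (rk2 (U p.1)) (lo (rk2 (U p.1)) B (ρ p.1)) p.2 w) :=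
    measurable_qq measurable_const measurable_const
      (measurable_vcov_lo (hstr D) hr hρ' hu v w) (measurable_vcov_lo (hstr D') hr hρ' hu v w)
      (measurable_vmag_lo (hstr D) hr hρ' hu w) (measurable_vmag_lo (hstr D') hr hρ' hu w)
  exact (h1.stronglyMeasurable.integral_prod_right (ν := Pu (V × ℕ))).measurable

omit [Countable V] [IsProbabilityMeasure μ] [IsProbabilityMeasure μ'] in
theorem PQ_nonneg (U : V × ℕ → ℝ) (ρ : ℕ ×ₗ ℝ) (v w : V) : 0 ≤ PQ μ μ' D D' B U ρ v w := by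
  unfold PQ pq
  exact integral_nonneg fun u => qq_nonneg _ _ _ _ _ _

theorem PQ_le (U : V × ℕ → ℝ) (ρ : ℕ ×ₗ ℝ) (v w : V) : PQ μ μ' D D' B U ρ v w ≤ 1000 := by
  unfold PQ pq
  calc _ ≤ ∫ _, (1000 : ℝ) ∂(Pu (V × ℕ)) := by
        refine integral_mono (integrable_pq (strD_nonneg D U) (strD_le D U) (strD_nonneg D' U)
          (strD_le D' U) (ind1_eq D w) (ind1_eq D' w) v w) (integrable_const _) fun u => ?_
        exact qq_le (ind1_eq D w) (ind1_eq D' w)
          (abs_vcov_le_two (strD_nonneg D U) (strD_le D U) u v w)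
          (abs_vcov_le_two (strD_nonneg D' U) (strD_le D' U) u v w)
          (abs_vmag_le (strD_nonneg D U) (strD_le D U) u w)
          (abs_vmag_le (strD_nonneg D' U) (strD_le D' U) u w)
    _ = 1000 := by simp

omit [Countable V] [IsProbabilityMeasure μ] [IsProbabilityMeasure μ'] in
theorem PD_nonneg (U : V × ℕ → ℝ) (ρ : ℕ ×ₗ ℝ) (v : V) : 0 ≤ PD μ μ' D D' B U ρ v :=
  pd_nonneg v

theorem PD_le (U : V × ℕ → ℝ) (ρ : ℕ ×ₗ ℝ) (v : V) : PD μ μ' D D' B U ρ v ≤ 4 :=
  pd_le_four (strD_nonneg D U) (strD_le D U) (strD_nonneg D' U) (strD_le D' U) v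

end meas

end Average

end Vale.Agent.P161
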