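import Mathlib
import Vale.Agent.P161E.Evol2

/-!
# Evolution of the difference of two samplers: the integrated inequality, finite volume
-/

open MeasureTheory

namespace Vale.Agent.P161

universe u

section Window

variable {V : Type u} {μ μ' : Measure (V → Bool)} {D D' : Set V} {B : Finset (V × ℕ)}
  [Countable V] [IsProbabilityMeasure μ] [IsProbabilityMeasure μ']

attribute [local irreducible] PQ PD

/-- Averages over the order labels. -/
noncomputable def ED (μ μ' : Measure (V → Bool)) (D D' : Set V) (B : Finset (V × ℕ))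
    (ρ : ℕ ×ₗ ℝ) (v : V) : ℝ := ∫ U, PD μ μ' D D' B U ρ v ∂(Pu (V × ℕ))

noncomputable def EQ (μ μ' : Measure (V → Bool)) (D D' : Set V) (B : Finset (V × ℕ))
    (ρ : ℕ ×ₗ ℝ) (v w : V) : ℝ := ∫ U, PQ μ μ' D D' B U ρ v w ∂(Pu (V × ℕ))

theorem measurable_PD_const (k : ℕ) (y : ℝ) (v : V) :
    Measurable fun U : V × ℕ → ℝ => PD μ μ' D D' B U (toLex (k, y)) v :=
  measurable_PD (fun e => measurable_pi_apply e) (fun i => measurableSet_rk2_const i k y) v

theorem measurable_PQ_pair (k : ℕ) (v w : V) :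
    Measurable fun p : (V × ℕ → ℝ) × ℝ => PQ μ μ' D D' B p.1 (toLex (k, p.2)) v w := by
  refine measurable_PQ (fun e => (measurable_pi_apply e).comp measurable_fst) (fun i => ?_) v w
  simp only [rk2_lt]
  exact (MeasurableSet.const _).union ((MeasurableSet.const _).inter
    (measurableSet_lt ((measurable_pi_apply i).comp measurable_fst) measurable_snd))

theorem integrable_PD_const (k : ℕ) (y : ℝ) (v : V) :
    Integrable (fun U : V × ℕ → ℝ => PD μ μ' D D' B U (toLex (k, y)) v) (Pu (V × ℕ)) := by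
  refine integrable_of_meas_bdd (measurable_PD_const k y v) (C := 4) fun U => ?_
  rw [abs_of_nonneg (PD_nonneg _ _ _)]
  exact PD_le _ _ _

/-- the weight of an event whose order label is `z` -/
noncomputable def wtc (y1 y2 : ℝ) : ℝ → ℝ :=
  (Set.Ico y1 y2).indicator fun z => ((1 + z) / 2) ^ 2

theorem measurable_wtc (y1 y2 : ℝ) : Measurable (wtc y1 y2) := by
  unfold wtc
  exact Measurable.indicator (by fun_prop) measurableSet_Ico

theorem wtc_nonneg (y1 y2 z : ℝ) : 0 ≤ wtc y1 y2 z := by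
  unfold wtc
  exact Set.indicator_nonneg (fun z _ => sq_nonneg _) z

theorem wtc_le {y1 y2 : ℝ} (h1 : -1 ≤ y1) (h2 : y2 ≤ 0) (z : ℝ) : |wtc y1 y2 z| ≤ 1 := by
  rw [abs_of_nonneg (wtc_nonneg _ _ _)]
  unfold wtc Set.indicator
  split_ifs with h
  · have h3 : y1 ≤ z := h.1
    have h4 : z < y2 := h.2
    nlinarith
  · norm_num

theorem wtc_of_not {y1 y2 z : ℝ} (h : ¬ (y1 ≤ z ∧ z < y2)) : wtc y1 y2 z = 0 := by
  unfold wtc
  exact Set.indicator_of_notMem (s := Set.Ico y1 y2) h _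

theorem wtc_of_mem {y1 y2 z : ℝ} (h : y1 ≤ z ∧ z < y2) : wtc y1 y2 z = ((1 + z) / 2) ^ 2 := by
  unfold wtc
  exact Set.indicator_of_mem (s := Set.Ico y1 y2) h _

/-- The sum over one event. -/
theorem event_le {w : V} {k : ℕ} {y1 y2 : ℝ} (h1 : -1 ≤ y1) (h2 : y2 ≤ 0) (v : V) :
    ∫ U, wtc y1 y2 (U (w, k)) * PQ μ μ' D D' B U (toLex (k, U (w, k))) v w ∂(Pu (V × ℕ)) ≤
      ∫ z, wtc y1 y2 z * (2 * EQ μ μ' D D' B (toLex (k, z)) v w) ∂unif := by
  unfold EQ
  refine window_resample (w, k) (Φ := fun U y => PQ μ μ' D D' B U (toLex (k, y)) v w)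
    (measurable_PQ_pair k v w) (C := 1000) (fun U y => ?_) (fun U y => PQ_nonneg _ _ _ _) h1 h2
    (fun U y z hz => @PQ_update V μ μ' D D' B (fun a b => Classical.propDecidable (a = b))
      w k y z hz U v w) (measurable_wtc y1 y2) (K := 1) (wtc_le h1 h2)
    (wtc_nonneg y1 y2) fun z hz => wtc_of_not hz
  rw [abs_of_nonneg (PQ_nonneg _ _ _ _)]
  exact PQ_le _ _ _ _

theorem measurable_EQ (k : ℕ) (v w : V) :
    Measurable fun z : ℝ => EQ μ μ' D D' B (toLex (k, z)) v w := by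
  have h1 : Measurable (Function.uncurry fun (z : ℝ) (U : V × ℕ → ℝ) =>
      PQ μ μ' D D' B U (toLex (k, z)) v w) := (measurable_PQ_pair k v w).comp measurable_swap
  exact (h1.stronglyMeasurable.integral_prod_right (ν := Pu (V × ℕ))).measurable

omit [Countable V] [IsProbabilityMeasure μ] [IsProbabilityMeasure μ'] in
theorem EQ_nonneg (ρ : ℕ ×ₗ ℝ) (v w : V) : 0 ≤ EQ μ μ' D D' B ρ v w :=
  integral_nonneg fun _ => PQ_nonneg _ _ _ _

theorem EQ_le (k : ℕ) (y : ℝ) (v w : V) : EQ μ μ' D D' B (toLex (k, y)) v w ≤ 1000 := by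
  unfold EQ
  have hm : Measurable fun U : V × ℕ → ℝ => PQ μ μ' D D' B U (toLex (k, y)) v w :=
    (measurable_PQ_pair k v w).comp (measurable_id.prodMk measurable_const)
  calc _ ≤ ∫ _, (1000 : ℝ) ∂(Pu (V × ℕ)) := by
        refine integral_mono (integrable_of_meas_bdd hm (C := 1000) fun U => ?_)
          (integrable_const _) fun U => PQ_le _ _ _ _
        rw [abs_of_nonneg (PQ_nonneg _ _ _ _)]
        exact PQ_le _ _ _ _
    _ = 1000 := by simp

/-- The order labels are fixed and distinct; the sum over the window, written with `wtc`. -/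
theorem window_fixed {D'' : Finset V} {k : ℕ} (hB : ∀ e : V × ℕ, e.2 = k → (e ∈ B ↔ e.1 ∈ D''))
    {U : V × ℕ → ℝ} (hU : Function.Injective U) (v : V) {y1 y2 : ℝ} (h1 : -1 ≤ y1)
    (h12 : y1 ≤ y2) (h2 : y2 ≤ 0) :
    PD μ μ' D D' B U (toLex (k, y1)) v ≤ PD μ μ' D D' B U (toLex (k, y2)) v ∧
    PD μ μ' D D' B U (toLex (k, y2)) v ≤ PD μ μ' D D' B U (toLex (k, y1)) v +
      ∑ w ∈ D'', wtc y1 y2 (U (w, k)) * PQ μ μ' D D' B U (toLex (k, U (w, k))) v w := by
  classical
  obtain ⟨ha, hb⟩ := round_fixed (μ := μ) (μ' := μ') (D := D) (D' := D') hB hU v (y1 := y1)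
    _ y2 h12 rfl
  refine ⟨ha, hb.trans_eq ?_⟩
  congr 1
  rw [Finset.sum_filter]
  refine Finset.sum_congr rfl fun w _ => ?_
  by_cases hw : y1 ≤ U (w, k) ∧ U (w, k) < y2
  · rw [if_pos hw, wtc_of_mem hw]
    have : strU U (w, k) = (1 + U (w, k)) / 2 := by
      unfold strU
      rw [if_pos (by linarith [hw.2]), max_eq_right (by linarith [hw.1])]
    rw [this]
    rfl
  · rw [if_neg hw, wtc_of_not hw, zero_mul]

/-- **The evolution inequality in finite volume.** -/
theorem evol {D'' : Finset V} {k : ℕ} (hB : ∀ e : V × ℕ, e.2 = k → (e ∈ B ↔ e.1 ∈ D''))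
    (v : V) {y1 y2 : ℝ} (h1 : -1 ≤ y1) (h12 : y1 ≤ y2) (h2 : y2 ≤ 0) {h : ℝ → ℝ}
    (hh : IntegrableOn h (Set.Ico y1 y2))
    (hdom : ∀ y, y1 ≤ y → y < y2 →
      ((1 + y) / 2) ^ 2 * ∑ w ∈ D'', EQ μ μ' D D' B (toLex (k, y)) v w ≤ h y) :
    ED μ μ' D D' B (toLex (k, y1)) v ≤ ED μ μ' D D' B (toLex (k, y2)) v ∧
    ED μ μ' D D' B (toLex (k, y2)) v ≤ ED μ μ' D D' B (toLex (k, y1)) v +
      ∫ y in Set.Ico y1 y2, h y := by
  have hinj : ∀ᵐ U ∂(Pu (V × ℕ)), Function.Injective U := ae_injective_Pu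
  have hmw : ∀ w : V, Measurable fun U : V × ℕ → ℝ =>
      wtc y1 y2 (U (w, k)) * PQ μ μ' D D' B U (toLex (k, U (w, k))) v w := fun w =>
    ((measurable_wtc y1 y2).comp (measurable_pi_apply (w, k))).mul
      ((measurable_PQ_pair k v w).comp (measurable_id.prodMk (measurable_pi_apply (w, k))))
  have hiw : ∀ w : V, Integrable (fun U : V × ℕ → ℝ =>
      wtc y1 y2 (U (w, k)) * PQ μ μ' D D' B U (toLex (k, U (w, k))) v w) (Pu (V × ℕ)) := by
    intro w
    refine integrable_of_meas_bdd (hmw w) (C := 1 * 1000) fun U => ?_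
    rw [abs_mul]
    refine mul_le_mul (wtc_le h1 h2 _) ?_ (abs_nonneg _) (by norm_num)
    rw [abs_of_nonneg (PQ_nonneg _ _ _ _)]
    exact PQ_le _ _ _ _
  constructor
  · refine integral_mono_ae (integrable_PD_const k y1 v) (integrable_PD_const k y2 v) ?_
    filter_upwards [hinj] with U hU
    exact (window_fixed (μ := μ) (μ' := μ') (D := D) (D' := D') hB hU v h1 h12 h2).1
  · have hstep : ED μ μ' D D' B (toLex (k, y2)) v ≤ ∫ U, (PD μ μ' D D' B U (toLex (k, y1)) v +
        ∑ w ∈ D'', wtc y1 y2 (U (w, k)) * PQ μ μ' D D' B U (toLex (k, U (w, k))) v w)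
          ∂(Pu (V × ℕ)) := by
      refine integral_mono_ae (integrable_PD_const k y2 v)
        ((integrable_PD_const k y1 v).add (integrable_finsetSum _ fun w _ => hiw w)) ?_
      filter_upwards [hinj] with U hU
      exact (window_fixed (μ := μ) (μ' := μ') (D := D) (D' := D') hB hU v h1 h12 h2).2
    rw [integral_add (integrable_PD_const k y1 v) (integrable_finsetSum _ fun w _ => hiw w),
      integral_finsetSum _ fun w _ => hiw w] at hstep
    refine hstep.trans ?_
    have hsum : ∑ w ∈ D'', ∫ U, wtc y1 y2 (U (w, k)) *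
        PQ μ μ' D D' B U (toLex (k, U (w, k))) v w ∂(Pu (V × ℕ)) ≤
        ∑ w ∈ D'', ∫ z, wtc y1 y2 z * (2 * EQ μ μ' D D' B (toLex (k, z)) v w) ∂unif :=
      Finset.sum_le_sum fun w _ => event_le h1 h2 v
    have hiz : ∀ w : V, Integrable (fun z : ℝ =>
        wtc y1 y2 z * (2 * EQ μ μ' D D' B (toLex (k, z)) v w)) unif := by
      intro w
      refine integrable_of_meas_bdd ((measurable_wtc y1 y2).mul ((measurable_EQ k v w).const_mul 2))
        (C := 1 * (2 * 1000)) fun z => ?_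
      rw [abs_mul]
      refine mul_le_mul (wtc_le h1 h2 _) ?_ (abs_nonneg _) (by norm_num)
      have h3 := EQ_nonneg (μ := μ) (μ' := μ') (D := D) (D' := D') (B := B) (toLex (k, z)) v w
      have h4 := EQ_le (μ := μ) (μ' := μ') (D := D) (D' := D') (B := B) k z v w
      rw [abs_of_nonneg (by linarith)]
      linarith
    rw [← integral_finsetSum _ fun w _ => hiz w] at hsum
    have hfin : ∫ z, ∑ w ∈ D'', wtc y1 y2 z * (2 * EQ μ μ' D D' B (toLex (k, z)) v w) ∂unif ≤
        ∫ z, (Set.Ico y1 y2).indicator (fun y => 2 * h y) z ∂unif := by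
      refine integral_mono (integrable_finsetSum _ fun w _ => hiz w) ?_ fun z => ?_
      · have h3 : Integrable ((Set.Ico y1 y2).indicator fun y => 2 * h y) volume :=
          (integrable_indicator_iff measurableSet_Ico).2 (hh.const_mul 2)
        unfold unif
        exact (h3.restrict (s := Set.Icc (-1) 1)).smul_measure (by simp)
      · change (∑ w ∈ D'', wtc y1 y2 z * (2 * EQ μ μ' D D' B (toLex (k, z)) v w)) ≤
          (Set.Ico y1 y2).indicator (fun y => 2 * h y) z
        by_cases hz : y1 ≤ z ∧ z < y2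
        · rw [Set.indicator_of_mem (s := Set.Ico y1 y2) hz, ← Finset.mul_sum, ← Finset.mul_sum,
            wtc_of_mem hz]
          have := hdom z hz.1 hz.2
          linarith
        · rw [Set.indicator_of_notMem (s := Set.Ico y1 y2) hz]
          refine (Finset.sum_eq_zero fun w _ => ?_).le
          rw [wtc_of_not hz, zero_mul]
    rw [integral_unif_Ico h1 (h2.trans (by norm_num))] at hfin
    have : ∫ U, PD μ μ' D D' B U (toLex (k, y1)) v ∂(Pu (V × ℕ)) =
        ED μ μ' D D' B (toLex (k, y1)) v := rfl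
    linarith

end Window

end Vale.Agent.P161
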