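import Mathlib
import Vale.Agent.P161E.Evol3
import Vale.Agent.P161E.Drop
import Vale.Agent.P161.Contraction

/-!
# Comparison of the samplers on two finite sets, for one value of the parameter
-/

open MeasureTheory

namespace Vale.Agent.P161

universe u

section

variable {V : Type u} {G : SimpleGraph V} {θ : ℝ} {μ : Measure (V → Bool)}

theorem integrableOn_const_Ico (a b c : ℝ) : IntegrableOn (fun _ : ℝ => c) (Set.Ico a b) := by
  unfold IntegrableOn
  exact integrable_const c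

theorem one_le_Cθ (θ : ℝ) : 1 ≤ Cθ θ := by
  have h : 0 ≤ 4 / (1 - θ) ^ 2 := by positivity
  unfold Cθ
  linarith

/-- Pointwise bound of the bracket. -/
theorem qq_path [IsProbabilityMeasure μ] (h0 : 0 ≤ θ) {D D' : Set V} (hD : D ⊆ D')
    {v w : V} {p : ℕ → V} (hP : PathData G θ μ (Prod.fst : V × ℕ → V) v w p)
    (U u : V × ℕ → ℝ) (S : Finset (V × ℕ)) :
    qq (ind1 D w) (ind1 D' w) (vcov μ (strD D U) Prod.fst (rk2 U) S u v w)
      (vcov μ (strD D' U) Prod.fst (rk2 U) S u v w) (vmag μ (strD D U) Prod.fst (rk2 U) S u w)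
      (vmag μ (strD D' U) Prod.fst (rk2 U) S u w) ≤
    ind1 D w * (36 * C1 θ * ((G.dist v w : ℝ) + 1) * θ ^ (2 * G.dist v w) *
        ∑ j ∈ Finset.range (G.dist v w + 1), (vmag μ (strD D U) Prod.fst (rk2 U) S u (p j) -
          vmag μ (strD D' U) Prod.fst (rk2 U) S u (p j)) ^ 2) +
      (1 - ind1 D w) * (144 * θ ^ (2 * G.dist v w)) := by
  set c := vobs μ (strD D U) Prod.fst (rk2 U) S u with hc
  set c' := vobs μ (strD D' U) Prod.fst (rk2 U) S u with hc'
  have hcb : ∀ i ∈ S, |c i| < 1 := fun i _ => abs_vobs_lt (strD_nonneg D U) (strD_le D U) u i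
  have hcb' : ∀ i ∈ S, |c' i| < 1 := fun i _ => abs_vobs_lt (strD_nonneg D' U) (strD_le D' U) u i
  set N := G.dist v w with hN
  have hθN : 0 ≤ θ ^ N := pow_nonneg h0 N
  have hJ : |vcov μ (strD D U) Prod.fst (rk2 U) S u v w| ≤ θ ^ N := hP.cov_le S c hcb
  have hJ' : |vcov μ (strD D' U) Prod.fst (rk2 U) S u v w| ≤ θ ^ N := hP.cov_le S c' hcb'
  have hJJ := hP.cov_sub_le S c S c' hcb hcb'
  have hm := abs_vmag_le (μ := μ) (site := (Prod.fst : V × ℕ → V)) (r := rk2 U) (S := S)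
    (strD_nonneg D U) (strD_le D U) u w
  have hm' := abs_vmag_le (μ := μ) (site := (Prod.fst : V × ℕ → V)) (r := rk2 U) (S := S)
    (strD_nonneg D' U) (strD_le D' U) u w
  have e2 : θ ^ (2 * N) = (θ ^ N) ^ 2 := by rw [mul_comm 2 N, pow_mul]
  by_cases hw : w ∈ D
  · have hw' : w ∈ D' := hD hw
    have i1 : ind1 D w = 1 := by unfold ind1; rw [if_pos hw]
    have i2 : ind1 D' w = 1 := by unfold ind1; rw [if_pos hw']
    rw [i1, i2]
    set Sg := ∑ j ∈ Finset.range (N + 1), |mag μ Prod.fst S c (p j) - mag μ Prod.fst S c' (p j)|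
      with hSg
    have hmSg : |vmag μ (strD D U) Prod.fst (rk2 U) S u w -
        vmag μ (strD D' U) Prod.fst (rk2 U) S u w| ≤ Sg := by
      have h4 : vmag μ (strD D U) Prod.fst (rk2 U) S u w -
          vmag μ (strD D' U) Prod.fst (rk2 U) S u w =
          mag μ Prod.fst S c (p N) - mag μ Prod.fst S c' (p N) := by
        rw [hN, hP.last]
        rfl
      rw [h4, hSg]
      exact Finset.single_le_sum
        (f := fun j => |mag μ Prod.fst S c (p j) - mag μ Prod.fst S c' (p j)|)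
        (fun j _ => abs_nonneg _) (Finset.mem_range.mpr (Nat.lt_succ_self N))
    have hSg0 : 0 ≤ Sg := (abs_nonneg _).trans hmSg
    have hCS : Sg ^ 2 ≤ ((N : ℝ) + 1) * ∑ j ∈ Finset.range (N + 1),
        (mag μ Prod.fst S c (p j) - mag μ Prod.fst S c' (p j)) ^ 2 := by
      have := sq_sum_le_card_mul_sum_sq (s := Finset.range (N + 1))
        (f := fun j => |mag μ Prod.fst S c (p j) - mag μ Prod.fst S c' (p j)|)
      simp only [Finset.card_range, sq_abs] at this
      rw [hSg]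
      push_cast at this
      exact this
    have hC := one_le_Cθ θ
    have q1 : (vcov μ (strD D U) Prod.fst (rk2 U) S u v w -
        vcov μ (strD D' U) Prod.fst (rk2 U) S u v w) ^ 2 ≤ (Cθ θ * θ ^ N * Sg) ^ 2 := by
      rw [← sq_abs]
      exact pow_le_pow_left₀ (abs_nonneg _) hJJ 2
    have q2 : (vcov μ (strD D' U) Prod.fst (rk2 U) S u v w) ^ 2 ≤ (θ ^ N) ^ 2 := by
      rw [← sq_abs]
      exact pow_le_pow_left₀ (abs_nonneg _) hJ' 2
    have q3 : (vmag μ (strD D U) Prod.fst (rk2 U) S u w -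
        vmag μ (strD D' U) Prod.fst (rk2 U) S u w) ^ 2 ≤ Sg ^ 2 := by
      rw [← sq_abs]
      exact pow_le_pow_left₀ (abs_nonneg _) hmSg 2
    have q4 : (vcov μ (strD D' U) Prod.fst (rk2 U) S u v w) ^ 2 *
        (vmag μ (strD D U) Prod.fst (rk2 U) S u w -
        vmag μ (strD D' U) Prod.fst (rk2 U) S u w) ^ 2 ≤ (θ ^ N) ^ 2 * Sg ^ 2 :=
      mul_le_mul q2 q3 (sq_nonneg _) (sq_nonneg _)
    unfold qq
    rw [if_neg one_ne_zero]
    simp only [one_mul, sub_self, zero_mul, add_zero]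
    have hfin : 8 * (Cθ θ * θ ^ N * Sg) ^ 2 + 32 * ((θ ^ N) ^ 2 * Sg ^ 2) ≤
        36 * C1 θ * (θ ^ N) ^ 2 * Sg ^ 2 := by
      have h5 : 0 ≤ (θ ^ N) ^ 2 * Sg ^ 2 := by positivity
      have h6 : 8 * Cθ θ ^ 2 + 32 ≤ 36 * C1 θ := by
        unfold C1
        nlinarith
      have := mul_le_mul_of_nonneg_right h6 h5
      nlinarith
    have hfin2 : 36 * C1 θ * (θ ^ N) ^ 2 * Sg ^ 2 ≤
        36 * C1 θ * ((N : ℝ) + 1) * θ ^ (2 * N) * ∑ j ∈ Finset.range (N + 1),
        (mag μ Prod.fst S c (p j) - mag μ Prod.fst S c' (p j)) ^ 2 := by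
      rw [e2]
      have h7 : 0 ≤ 36 * C1 θ * (θ ^ N) ^ 2 := by
        have := one_le_C1 θ
        positivity
      have := mul_le_mul_of_nonneg_left hCS h7
      linarith
    have hfin3 : ∑ j ∈ Finset.range (N + 1), (vmag μ (strD D U) Prod.fst (rk2 U) S u (p j) -
          vmag μ (strD D' U) Prod.fst (rk2 U) S u (p j)) ^ 2 =
        ∑ j ∈ Finset.range (N + 1),
        (mag μ Prod.fst S c (p j) - mag μ Prod.fst S c' (p j)) ^ 2 := rfl
    rw [hfin3]
    linarith
  · have i1 : ind1 D w = 0 := by unfold ind1; rw [if_neg hw]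
    rw [i1]
    have hb : (ind1 D' w) ^ 2 ≤ 1 := by
      rcases ind1_eq D' w with h | h <;> rw [h] <;> norm_num
    have q2 : (vcov μ (strD D' U) Prod.fst (rk2 U) S u v w) ^ 2 ≤ (θ ^ N) ^ 2 := by
      rw [← sq_abs]
      exact pow_le_pow_left₀ (abs_nonneg _) hJ' 2
    have q3 := sq_sub_le_four hm hm'
    unfold qq
    rw [e2]
    set J' := vcov μ (strD D' U) Prod.fst (rk2 U) S u v w
    set b := ind1 D' w
    set x := vmag μ (strD D U) Prod.fst (rk2 U) S u w - vmag μ (strD D' U) Prod.fst (rk2 U) S u w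
    have q5 : (b * J') ^ 2 ≤ (θ ^ N) ^ 2 := by
      rw [mul_pow]
      calc b ^ 2 * J' ^ 2 ≤ 1 * (θ ^ N) ^ 2 := mul_le_mul hb q2 (sq_nonneg _) (by norm_num)
        _ = _ := one_mul _
    have q6 : (b * J') ^ 2 * x ^ 2 ≤ (θ ^ N) ^ 2 * 4 := mul_le_mul q5 q3 (sq_nonneg _) (sq_nonneg _)
    rw [if_pos rfl]
    nlinarith

variable [Countable V] [IsProbabilityMeasure μ]

theorem PQ_path (h0 : 0 ≤ θ) {D D' : Set V} (hD : D ⊆ D') {B : Finset (V × ℕ)}
    {v w : V} {p : ℕ → V} (hP : PathData G θ μ (Prod.fst : V × ℕ → V) v w p)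
    (U : V × ℕ → ℝ) (ρ : ℕ ×ₗ ℝ) :
    PQ μ μ D D' B U ρ v w ≤
    ind1 D w * (36 * C1 θ * ((G.dist v w : ℝ) + 1) * θ ^ (2 * G.dist v w) *
        ∑ j ∈ Finset.range (G.dist v w + 1), PD μ μ D D' B U ρ (p j)) +
      (1 - ind1 D w) * (144 * θ ^ (2 * G.dist v w)) := by
  unfold PQ PD pq pd
  have hi : ∀ x : V, Integrable (fun u => (vmag μ (strD D U) Prod.fst (rk2 U)
      (lo (rk2 U) B ρ) u x - vmag μ (strD D' U) Prod.fst (rk2 U) (lo (rk2 U) B ρ) u x) ^ 2)
      (Pu (V × ℕ)) := fun x =>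
    integrable_pd (strD_nonneg D U) (strD_le D U) (strD_nonneg D' U) (strD_le D' U) x
  have hs : Integrable (fun u => ∑ j ∈ Finset.range (G.dist v w + 1),
      (vmag μ (strD D U) Prod.fst (rk2 U) (lo (rk2 U) B ρ) u (p j) -
        vmag μ (strD D' U) Prod.fst (rk2 U) (lo (rk2 U) B ρ) u (p j)) ^ 2) (Pu (V × ℕ)) :=
    integrable_finsetSum _ fun j _ => hi (p j)
  calc _ ≤ ∫ u, (ind1 D w * (36 * C1 θ * ((G.dist v w : ℝ) + 1) * θ ^ (2 * G.dist v w) *
        ∑ j ∈ Finset.range (G.dist v w + 1), (vmag μ (strD D U) Prod.fst (rk2 U)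
          (lo (rk2 U) B ρ) u (p j) -
          vmag μ (strD D' U) Prod.fst (rk2 U) (lo (rk2 U) B ρ) u (p j)) ^ 2) +
      (1 - ind1 D w) * (144 * θ ^ (2 * G.dist v w))) ∂(Pu (V × ℕ)) := by
        refine integral_mono (integrable_pq (strD_nonneg D U) (strD_le D U) (strD_nonneg D' U)
          (strD_le D' U) (ind1_eq D w) (ind1_eq D' w) v w) ?_ fun u => ?_
        · exact ((hs.const_mul _).const_mul _).add (integrable_const _)
        · exact qq_path h0 hD hP U u _
    _ = _ := by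
        rw [integral_add ((hs.const_mul _).const_mul _) (integrable_const _), integral_const_mul,
          integral_const_mul, integral_finsetSum _ fun j _ => hi (p j)]
        simp

attribute [local irreducible] PQ PD

theorem EQ_path (h0 : 0 ≤ θ) {D D' : Set V} (hD : D ⊆ D') {B : Finset (V × ℕ)}
    {v w : V} {p : ℕ → V} (hP : PathData G θ μ (Prod.fst : V × ℕ → V) v w p) (k : ℕ) (y : ℝ) :
    EQ μ μ D D' B (toLex (k, y)) v w ≤
    ind1 D w * (36 * C1 θ * ((G.dist v w : ℝ) + 1) * θ ^ (2 * G.dist v w) *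
        ∑ j ∈ Finset.range (G.dist v w + 1), ED μ μ D D' B (toLex (k, y)) (p j)) +
      (1 - ind1 D w) * (144 * θ ^ (2 * G.dist v w)) := by
  unfold EQ ED
  have hi : ∀ x : V, Integrable (fun U => PD μ μ D D' B U (toLex (k, y)) x) (Pu (V × ℕ)) :=
    fun x => integrable_PD_const k y x
  have hs : Integrable (fun U => ∑ j ∈ Finset.range (G.dist v w + 1),
      PD μ μ D D' B U (toLex (k, y)) (p j)) (Pu (V × ℕ)) :=
    integrable_finsetSum _ fun j _ => hi (p j)
  have hm : Measurable fun U : V × ℕ → ℝ => PQ μ μ D D' B U (toLex (k, y)) v w :=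
    (measurable_PQ_pair k v w).comp (measurable_id.prodMk measurable_const)
  calc _ ≤ ∫ U, (ind1 D w * (36 * C1 θ * ((G.dist v w : ℝ) + 1) * θ ^ (2 * G.dist v w) *
        ∑ j ∈ Finset.range (G.dist v w + 1), PD μ μ D D' B U (toLex (k, y)) (p j)) +
      (1 - ind1 D w) * (144 * θ ^ (2 * G.dist v w))) ∂(Pu (V × ℕ)) := by
        refine integral_mono (integrable_of_meas_bdd hm (C := 1000) fun U => ?_) ?_ fun U => ?_
        · rw [abs_of_nonneg (PQ_nonneg _ _ _ _)]
          exact PQ_le _ _ _ _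
        · exact ((hs.const_mul _).const_mul _).add (integrable_const _)
        · exact PQ_path h0 hD hP U _
    _ = _ := by
        rw [integral_add ((hs.const_mul _).const_mul _) (integrable_const _), integral_const_mul,
          integral_const_mul, integral_finsetSum _ fun j _ => hi (p j)]
        simp

/-- The bound of the growth rate. -/
theorem rate_bound [G.LocallyFinite] (hG : G.Connected) (h0 : 0 ≤ θ) {ρ q : ℝ} (hρ : 0 < ρ)
    (hρ' : ρ ≤ 1) (hq : 0 ≤ q) (hqρ : θ ^ 2 = q * ρ) {C : ℝ} (hC : 0 ≤ C)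
    (hsum : ∀ (v : V) (W : Finset V),
      ∑ w ∈ W, ((G.dist v w : ℝ) + 1) ^ 2 * q ^ G.dist v w ≤ C)
    {P : V → V → ℕ → V} (hP : ∀ v w, PathData G θ μ (Prod.fst : V × ℕ → V) v w (P v w))
    (o : V) (n : ℕ) {D' : Finset V} (hD : ball G o n ⊆ D') (B : Finset (V × ℕ)) (k : ℕ)
    {y : ℝ} (hy1 : -1 ≤ y) (hy2 : y ≤ 0) {M : ℝ} (hM : 0 ≤ M)
    (hMv : ∀ v, ED μ μ (ball G o n : Set V) (D' : Set V) B (toLex (k, y)) v ≤
      M * wgt G ρ o n v) (v : V) :
    ((1 + y) / 2) ^ 2 * ∑ w ∈ D', EQ μ μ (ball G o n : Set V) (D' : Set V) B (toLex (k, y)) v w ≤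
      9 * C * (C1 θ + 4) * (M + 1) * wgt G ρ o n v := by
  classical
  have hDD : (ball G o n : Set V) ⊆ (D' : Set V) := by exact_mod_cast hD
  have hω := (wgt_pos (G := G) hρ o n v).le
  have hterm : ∀ w ∈ D', EQ μ μ (ball G o n : Set V) (D' : Set V) B (toLex (k, y)) v w ≤
      (6 : ℝ) ^ 2 * wgt G ρ o n v * (C1 θ * M + 4) *
        (((G.dist v w : ℝ) + 1) ^ 2 * q ^ G.dist v w) := by
    intro w _
    have h1 := EQ_path (B := B) h0 hDD (hP v w) k y
    have h2 := term_bound (γ := 6) hG hρ hρ' hq hqρ hP hM hMv v w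
    refine h1.trans (le_trans (le_of_eq ?_) h2)
    unfold Kc
    by_cases hw : w ∈ ball G o n
    · have i1 : ind1 (ball G o n : Set V) w = 1 := by
        unfold ind1; rw [if_pos (by exact_mod_cast hw)]
      rw [i1, if_pos hw]
      ring
    · have i1 : ind1 (ball G o n : Set V) w = 0 := by
        unfold ind1; rw [if_neg (by exact_mod_cast hw)]
      rw [i1, if_neg hw]
      ring
  have hC1 := one_le_C1 θ
  have hsum' : ∑ w ∈ D', EQ μ μ (ball G o n : Set V) (D' : Set V) B (toLex (k, y)) v w ≤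
      (6 : ℝ) ^ 2 * wgt G ρ o n v * (C1 θ * M + 4) * C := by
    refine (Finset.sum_le_sum hterm).trans ?_
    rw [← Finset.mul_sum]
    refine mul_le_mul_of_nonneg_left (hsum v D') ?_
    positivity
  have hnn : 0 ≤ ∑ w ∈ D', EQ μ μ (ball G o n : Set V) (D' : Set V) B (toLex (k, y)) v w :=
    Finset.sum_nonneg fun w _ => EQ_nonneg _ _ _
  have hy3 : ((1 + y) / 2) ^ 2 ≤ 1 / 4 := by nlinarith
  calc _ ≤ 1 / 4 * ((6 : ℝ) ^ 2 * wgt G ρ o n v * (C1 θ * M + 4) * C) :=
        mul_le_mul hy3 hsum' hnn (by norm_num)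
    _ = 9 * C * (C1 θ * M + 4) * wgt G ρ o n v := by ring
    _ ≤ 9 * C * ((C1 θ + 4) * (M + 1)) * wgt G ρ o n v := by
        refine mul_le_mul_of_nonneg_right (mul_le_mul_of_nonneg_left ?_ (by positivity)) hω
        nlinarith
    _ = _ := by ring

/-- supremum form of the weighted bound -/
theorem ED_le_four {D D' : Set V} {B : Finset (V × ℕ)} (k : ℕ) (y : ℝ) (v : V) :
    ED μ μ D D' B (toLex (k, y)) v ≤ 4 := by
  unfold ED
  calc _ ≤ ∫ _, (4 : ℝ) ∂(Pu (V × ℕ)) :=
        integral_mono (integrable_PD_const k y v) (integrable_const _) fun U => PD_le _ _ _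
    _ = 4 := by simp

omit [Countable V] [IsProbabilityMeasure μ] in
theorem ED_nonneg {D D' : Set V} {B : Finset (V × ℕ)} (ρ : ℕ ×ₗ ℝ) (v : V) :
    0 ≤ ED μ μ D D' B ρ v := integral_nonneg fun _ => PD_nonneg _ _ _

/-- One small time step. -/
theorem small_step [G.LocallyFinite] (hG : G.Connected) (h0 : 0 ≤ θ) {ρ q : ℝ} (hρ : 0 < ρ)
    (hρ' : ρ ≤ 1) (hq : 0 ≤ q) (hqρ : θ ^ 2 = q * ρ) {C : ℝ} (hC : 0 ≤ C)
    (hsum : ∀ (v : V) (W : Finset V),
      ∑ w ∈ W, ((G.dist v w : ℝ) + 1) ^ 2 * q ^ G.dist v w ≤ C)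
    {P : V → V → ℕ → V} (hP : ∀ v w, PathData G θ μ (Prod.fst : V × ℕ → V) v w (P v w))
    (o : V) (n : ℕ) {D' : Finset V} (hD : ball G o n ⊆ D') {k l : ℕ} (hkl : k ≤ l)
    {y1 y2 : ℝ} (hy1 : -1 ≤ y1) (hy12 : y1 ≤ y2) (hy2 : y2 ≤ 0)
    (hsmall : (y2 - y1) * (9 * C * (C1 θ + 4)) ≤ 1 / 2) {A : ℝ}
    (hA : ∀ v, ED μ μ (ball G o n : Set V) (D' : Set V) (evK D' l) (toLex (k, y1)) v ≤
      A * wgt G ρ o n v) :
    ∀ v, ED μ μ (ball G o n : Set V) (D' : Set V) (evK D' l) (toLex (k, y2)) v ≤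
      (2 * A + 1) * wgt G ρ o n v := by
  set B := evK D' l with hBdef
  have hB : ∀ e : V × ℕ, e.2 = k → (e ∈ B ↔ e.1 ∈ D') := by
    intro e he
    rw [hBdef, mem_evK]
    constructor
    · exact fun h => h.1
    · exact fun h => ⟨h, by omega⟩
  set Y : V → ℝ := fun v =>
    ED μ μ (ball G o n : Set V) (D' : Set V) B (toLex (k, y2)) v with hY
  have hY0 : ∀ v, 0 ≤ Y v := fun v => ED_nonneg _ v
  have hY4 : ∀ v, Y v ≤ 4 := fun v => ED_le_four k y2 v
  have hω : ∀ v, 0 < wgt G ρ o n v := fun v => wgt_pos hρ o n v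
  have hωl : ∀ v, ρ ^ (n + 1) ≤ wgt G ρ o n v := fun v => pow_le_wgt hρ hρ' o n v
  have hbdd : BddAbove (Set.range fun v => Y v / wgt G ρ o n v) := by
    refine ⟨4 / ρ ^ (n + 1), ?_⟩
    rintro _ ⟨v, rfl⟩
    exact div_le_div₀ (by norm_num) (hY4 v) (pow_pos hρ _) (hωl v)
  have : Nonempty V := ⟨o⟩
  set M := ⨆ v, Y v / wgt G ρ o n v with hM
  have hM1 : ∀ v, Y v ≤ M * wgt G ρ o n v := by
    intro v
    have := le_ciSup hbdd v
    rwa [div_le_iff₀ (hω v)] at this
  have hM0 : 0 ≤ M := by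
    have := hM1 o
    have h2 := hY0 o
    by_contra h3
    push Not at h3
    have := mul_neg_of_neg_of_pos h3 (hω o)
    linarith
  -- monotonicity in the time, from `evol` with the trivial bound
  have hmono : ∀ y, y1 ≤ y → y ≤ y2 → ∀ v,
      ED μ μ (ball G o n : Set V) (D' : Set V) B (toLex (k, y)) v ≤ Y v := by
    intro y h1 h2 v
    refine (evol (D := (ball G o n : Set V)) (D' := (D' : Set V)) hB v (hy1.trans h1) h2 hy2
      (h := fun _ => ∑ w ∈ D', (1000 : ℝ)) (integrableOn_const_Ico _ _ _)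
      fun z hz1 hz2 => ?_).1
    have h3 : ((1 + z) / 2) ^ 2 ≤ 1 := by nlinarith
    calc _ ≤ 1 * ∑ w ∈ D', EQ μ μ (ball G o n : Set V) (D' : Set V) B (toLex (k, z)) v w :=
          mul_le_mul_of_nonneg_right h3 (Finset.sum_nonneg fun w _ => EQ_nonneg _ _ _)
      _ ≤ _ := by
          rw [one_mul]
          exact Finset.sum_le_sum fun w _ => EQ_le k z v w
  have hstep : ∀ v, Y v ≤ (A + (M + 1) / 2) * wgt G ρ o n v := by
    intro v
    have hev := (evol (D := (ball G o n : Set V)) (D' := (D' : Set V)) hB v hy1 hy12 hy2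
      (h := fun _ => 9 * C * (C1 θ + 4) * (M + 1) * wgt G ρ o n v)
        (integrableOn_const_Ico _ _ _) fun y h1 h2 =>
        rate_bound hG h0 hρ hρ' hq hqρ hC hsum hP o n hD B k (hy1.trans h1) (h2.le.trans hy2) hM0
          (fun v => (hmono y h1 h2.le v).trans (hM1 v)) v).2
    have hint : ∫ _ in Set.Ico y1 y2, 9 * C * (C1 θ + 4) * (M + 1) * wgt G ρ o n v =
        (y2 - y1) * (9 * C * (C1 θ + 4)) * ((M + 1) * wgt G ρ o n v) := by
      rw [setIntegral_const, measureReal_def, Real.volume_Ico,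
        ENNReal.toReal_ofReal (by linarith), smul_eq_mul]
      ring
    rw [hint] at hev
    have h5 : 0 ≤ (M + 1) * wgt G ρ o n v := by
      have := (hω v).le
      positivity
    have h6 := mul_le_mul_of_nonneg_right hsmall h5
    have h7 := hA v
    calc Y v ≤ _ := hev
      _ ≤ A * wgt G ρ o n v + 1 / 2 * ((M + 1) * wgt G ρ o n v) := add_le_add h7 h6
      _ = _ := by ring
  have hM2 : M ≤ A + (M + 1) / 2 := by
    refine ciSup_le fun v => ?_
    rw [div_le_iff₀ (hω v)]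
    exact hstep v
  intro v
  calc Y v ≤ M * wgt G ρ o n v := hM1 v
    _ ≤ _ := mul_le_mul_of_nonneg_right (by linarith) (hω v).le

/-- monotonicity in time within a round -/
theorem ED_mono {D D' : Set V} {D'' : Finset V} {B : Finset (V × ℕ)} {k : ℕ}
    (hB : ∀ e : V × ℕ, e.2 = k → (e ∈ B ↔ e.1 ∈ D'')) {y1 y2 : ℝ} (hy1 : -1 ≤ y1)
    (hy12 : y1 ≤ y2) (hy2 : y2 ≤ 0) (v : V) :
    ED μ μ D D' B (toLex (k, y1)) v ≤ ED μ μ D D' B (toLex (k, y2)) v := by
  refine (evol hB v hy1 hy12 hy2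
    (h := fun _ => ∑ w ∈ D'', (1000 : ℝ)) (integrableOn_const_Ico _ _ _)
    fun z hz1 hz2 => ?_).1
  have h3 : ((1 + z) / 2) ^ 2 ≤ 1 := by nlinarith
  calc _ ≤ 1 * ∑ w ∈ D'', EQ μ μ D D' B (toLex (k, z)) v w :=
        mul_le_mul_of_nonneg_right h3 (Finset.sum_nonneg fun w _ => EQ_nonneg _ _ _)
    _ ≤ _ := by
        rw [one_mul]
        exact Finset.sum_le_sum fun w _ => EQ_le k z v w

theorem ae_neg_one_le : ∀ᵐ U ∂(Pu (V × ℕ)), ∀ e, -1 ≤ U e := by
  rw [ae_all_iff]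
  intro e
  filter_upwards [ae_Pu_abs_le e] with U hU
  exact (abs_le.1 hU).1

/-- `ED` in terms of the samplers on `D` and `D'`. -/
theorem ED_eq {D D' : Finset V} (hD : D ⊆ D') {k l : ℕ} (hkl : k ≤ l) (y : ℝ) (v : V) :
    ED μ μ (D : Set V) (D' : Set V) (evK D' l) (toLex (k, y)) v =
      ∫ U, ∫ u, (mf μ D k y U u v - mf μ D' k y U u v) ^ 2 ∂(Pu (V × ℕ)) ∂(Pu (V × ℕ)) := by
  unfold ED PD pd
  refine integral_congr_ae (Filter.Eventually.of_forall fun U => ?_)
  refine integral_congr_ae (Filter.Eventually.of_forall fun u => ?_)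
  simp only
  rw [vmag_strD hD hkl, vmag_strD (Finset.Subset.refl D') hkl]

theorem ED_round {D D' : Finset V} (hD : D ⊆ D') {k l : ℕ} (hkl : k + 1 ≤ l) (v : V) :
    ED μ μ (D : Set V) (D' : Set V) (evK D' l) (toLex (k + 1, -1)) v =
      ED μ μ (D : Set V) (D' : Set V) (evK D' l) (toLex (k, 0)) v := by
  rw [ED_eq hD hkl, ED_eq hD (by omega)]
  refine integral_congr_ae ?_
  filter_upwards [ae_neg_one_le (V := V)] with U hU
  refine integral_congr_ae (Filter.Eventually.of_forall fun u => ?_)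
  simp only
  rw [mf_round D k hU, mf_round D' k hU]

theorem ED_start {D D' : Finset V} (hD : D ⊆ D') (l : ℕ) (v : V) :
    ED μ μ (D : Set V) (D' : Set V) (evK D' l) (toLex (0, -1)) v = 0 := by
  rw [ED_eq hD (Nat.zero_le l)]
  have h1 : ∀ᵐ U ∂(Pu (V × ℕ)), ∫ u, (mf μ D 0 (-1) U u v - mf μ D' 0 (-1) U u v) ^ 2
      ∂(Pu (V × ℕ)) = 0 := by
    filter_upwards [ae_neg_one_le (V := V)] with U hU
    unfold mf
    rw [evT_zero D hU, evT_zero D' hU]
    simp
  rw [integral_congr_ae h1]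
  simp

end

section main

variable {V : Type u} {G : SimpleGraph V} {θ : ℝ} {μ : Measure (V → Bool)}

/-- **Comparison of the samplers on a ball and on a larger set.** -/
theorem contr [G.LocallyFinite] (hG : G.IsTree) {d : ℕ} (hd : G.IsRegularOfDegree d)
    (hμ : IsTreeIsing G θ μ) (h0 : 0 ≤ θ) (h1 : θ < 1) (hθ : ((d : ℝ) - 1) * θ ^ 2 < 1) :
    ∃ L : ℝ, 1 ≤ L ∧ ∃ ρ : ℝ, 0 < ρ ∧ ρ < 1 ∧
      ∀ (o : V) (n : ℕ) (D' : Finset V), ball G o n ⊆ D' → ∀ (k : ℕ) (y : ℝ),
        -1 ≤ y → y ≤ 0 → ∀ v,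
        ∫ U, ∫ u, (mf μ (ball G o n) k y U u v - mf μ D' k y U u v) ^ 2
          ∂(Pu (V × ℕ)) ∂(Pu (V × ℕ)) ≤ L ^ (k + 1) * wgt G ρ o n v := by
  classical
  have := hμ.isProb
  have : Countable V := countable_of_locallyFinite hG.connected
  set ρ : ℝ := (1 + max 0 (((d : ℝ) - 1) * θ ^ 2)) / 2 with hρdef
  have hρ : 0 < ρ := by
    have : 0 ≤ max 0 (((d : ℝ) - 1) * θ ^ 2) := le_max_left _ _
    linarith
  have hρ1 : ρ < 1 := by
    have : max 0 (((d : ℝ) - 1) * θ ^ 2) < 1 := max_lt one_pos hθ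
    linarith
  have hρ2 : ((d : ℝ) - 1) * θ ^ 2 < ρ := by
    have h2 : max 0 (((d : ℝ) - 1) * θ ^ 2) < 1 := max_lt one_pos hθ
    have h3 : ((d : ℝ) - 1) * θ ^ 2 ≤ max 0 (((d : ℝ) - 1) * θ ^ 2) := le_max_right _ _
    linarith
  set q : ℝ := θ ^ 2 / ρ with hqdef
  have hq : 0 ≤ q := by positivity
  have hqρ : θ ^ 2 = q * ρ := by rw [hqdef]; field_simp
  have hq1 : ((d : ℝ) - 1) * q < 1 := by
    rw [hqdef, ← mul_div_assoc, div_lt_one hρ]
    exact hρ2
  obtain ⟨C, hC, hsum⟩ := sum_bound hG.connected hd hq hq1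
  have hC1 := one_le_C1 θ
  choose P hP using fun v w => exists_pathData hG hμ h0 h1 (Prod.fst : V × ℕ → V) v w
  set K0 := 9 * C * (C1 θ + 4) with hK0
  have hK00 : 0 ≤ K0 := by positivity
  obtain ⟨N, hN⟩ : ∃ N : ℕ, 2 * K0 ≤ N ∧ 1 ≤ N := by
    refine ⟨⌈2 * K0⌉₊ + 1, ?_, by omega⟩
    push_cast
    have := Nat.le_ceil (2 * K0)
    linarith
  have hNpos : (0 : ℝ) < N := by
    have : (1 : ℝ) ≤ N := by exact_mod_cast hN.2
    linarith
  refine ⟨2 ^ N, one_le_pow₀ (by norm_num), ρ, hρ, hρ1, fun o n D' hD k y hy1 hy2 v => ?_⟩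
  -- the bound along the grid
  have hgrid : ∀ l k : ℕ, k ≤ l → ∀ i : ℕ, i ≤ N → ∀ v,
      ED μ μ (ball G o n : Set V) (D' : Set V) (evK D' l) (toLex (k, -1 + (i : ℝ) / N)) v ≤
        (2 ^ (N * k + i) - 1) * wgt G ρ o n v := by
    intro l k
    induction k with
    | zero =>
      intro _ i
      induction i with
      | zero =>
        intro _ v
        have := ED_start (μ := μ) hD l v
        simp only [Nat.cast_zero, zero_div, add_zero]
        rw [this]
        simp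
      | succ i ih =>
        intro hi v
        have h2 := small_step hG.connected h0 hρ hρ1.le hq hqρ hC hsum hP o n hD
          (Nat.zero_le l) (y1 := -1 + (i : ℝ) / N) (y2 := -1 + ((i + 1 : ℕ) : ℝ) / N)
          (by have : 0 ≤ (i : ℝ) / N := by positivity
              linarith)
          (by
            push_cast
            have : (i : ℝ) / N ≤ ((i : ℝ) + 1) / N := by gcongr; linarith
            linarith)
          (by
            have : ((i + 1 : ℕ) : ℝ) / N ≤ 1 := by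
              rw [div_le_one hNpos]; exact_mod_cast hi
            linarith)
          (by
            have e : -1 + ((i + 1 : ℕ) : ℝ) / N - (-1 + (i : ℝ) / N) = 1 / N := by
              push_cast; ring
            rw [e, ← hK0, div_mul_eq_mul_div, one_mul, div_le_iff₀ hNpos]
            linarith [hN.1])
          (ih (by omega)) v
        refine h2.trans (le_of_eq ?_)
        ring
    | succ k ihk =>
      intro hkl i
      induction i with
      | zero =>
        intro _ v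
        have h2 := ihk (by omega) N le_rfl v
        rw [div_self hNpos.ne', neg_add_cancel] at h2
        simp only [Nat.cast_zero, zero_div, add_zero]
        rw [ED_round hD hkl]
        refine h2.trans (le_of_eq ?_)
        ring
      | succ i ih =>
        intro hi v
        have h2 := small_step hG.connected h0 hρ hρ1.le hq hqρ hC hsum hP o n hD
          hkl (y1 := -1 + (i : ℝ) / N) (y2 := -1 + ((i + 1 : ℕ) : ℝ) / N)
          (by have : 0 ≤ (i : ℝ) / N := by positivity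
              linarith)
          (by
            push_cast
            have : (i : ℝ) / N ≤ ((i : ℝ) + 1) / N := by gcongr; linarith
            linarith)
          (by
            have : ((i + 1 : ℕ) : ℝ) / N ≤ 1 := by
              rw [div_le_one hNpos]; exact_mod_cast hi
            linarith)
          (by
            have e : -1 + ((i + 1 : ℕ) : ℝ) / N - (-1 + (i : ℝ) / N) = 1 / N := by
              push_cast; ring
            rw [e, ← hK0, div_mul_eq_mul_div, one_mul, div_le_iff₀ hNpos]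
            linarith [hN.1])
          (ih (by omega)) v
        refine h2.trans (le_of_eq ?_)
        ring
  have hend := hgrid k k le_rfl N le_rfl v
  rw [div_self hNpos.ne', neg_add_cancel] at hend
  have hB : ∀ e : V × ℕ, e.2 = k → (e ∈ evK D' k ↔ e.1 ∈ D') := by
    intro e he
    rw [mem_evK]
    constructor
    · exact fun h => h.1
    · exact fun h => ⟨h, by omega⟩
  have hmono := ED_mono (μ := μ) (D := (ball G o n : Set V)) (D' := (D' : Set V)) hB hy1 hy2
    le_rfl v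
  rw [ED_eq hD le_rfl] at hmono
  refine hmono.trans (hend.trans ?_)
  refine mul_le_mul_of_nonneg_right ?_ (wgt_pos hρ o n v).le
  rw [← pow_mul, Nat.mul_succ]
  linarith

end main

end Vale.Agent.P161
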